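import Vale.Agent.P032.H715.Common
import Vale.Agent.P032.H802.Fill

/-!
# P032: removable points of the parity lemma

`Irr.rem715` : a point `u` with two points `g1 ≠ g2` of `S(u)` with palettes inside `{e, f}` has
arbitrarily small neighbourhoods without common points of the colours `e`, `f` on the frontier.
`Par.core715` : recolouring finitely many such neighbourhoods.
`Irr.par715`, `Irr.par_fill715` : the parity lemmas with a point `u` such that no palette on `S(u)` is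
inside `{e, f}`.
-/

open Set Filter Topology Metric

noncomputable section

namespace Vale.Agent.P032.Six

variable {k : ℕ} {U : Fin k → Set ℂ} {T : ℂ → Set (Fin k)}

/-- the cover recoloured on `N` with the colour `a` -/
def recol715 (T : ℂ → Set (Fin k)) (N : Set ℂ) (a : Fin k) (x : ℂ) : Set (Fin k) :=
  {i | (i = a ∧ x ∈ closure N) ∨ (i ∈ T x ∧ x ∉ N)}

theorem recol_closed715 {T : ℂ → Set (Fin k)} (h : ∀ i, IsClosed {x | i ∈ T x}) {N : Set ℂ}
    (hN : IsOpen N) (a i : Fin k) : IsClosed {x | i ∈ recol715 T N a x} := by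
  by_cases hi : i = a
  · have : {x | i ∈ recol715 T N a x} = closure N ∪ ({x | i ∈ T x} ∩ Nᶜ) := by
      ext x; simp [recol715, hi]
    rw [this]
    exact isClosed_closure.union ((h i).inter hN.isClosed_compl)
  · have : {x | i ∈ recol715 T N a x} = {x | i ∈ T x} ∩ Nᶜ := by
      ext x; simp [recol715, hi]
    rw [this]
    exact (h i).inter hN.isClosed_compl

theorem recol_ne715 {T : ℂ → Set (Fin k)} (h : ∀ x, (T x).Nonempty) (N : Set ℂ) (a : Fin k)
    (x : ℂ) : (recol715 T N a x).Nonempty := by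
  by_cases hx : x ∈ N
  · exact ⟨a, Or.inl ⟨rfl, subset_closure hx⟩⟩
  · obtain ⟨i, hi⟩ := h x
    exact ⟨i, Or.inr ⟨hi, hx⟩⟩

theorem isClosed_Inn715 (T : ℂ → Set (Fin k)) (z : ℂ) (x : Fin k) : IsClosed {u | InnO T z u x} :=
  isClosed_closure

/-- **Removing neighbourhoods** -/
theorem Par.core715 {z : ℂ} {e f : Fin k} (hP : Par T z e f) {T' : ℂ → Set (Fin k)}
    (hcl : ∀ i, IsClosed {x | i ∈ T' x}) (hne : ∀ x, (T' x).Nonempty)
    (hag : ∀ q, dist q z = 1 → T' q = T q) :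
    ∃ u x, dist u z ≤ 1 ∧ e ∈ T' u ∧ f ∈ T' u ∧ x ≠ e ∧ x ≠ f ∧ InnO T' z u x ∧
      ∀ N, IsOpen N → u ∈ N → closure N ⊆ ball z 1 → ∃ w ∈ frontier N, e ∈ T' w ∧ f ∈ T' w := by
  by_contra hcon
  push Not at hcon
  obtain ⟨-, a, -, -, -, hae, haf, -⟩ := hP T' hcl hne hag
  set K : Set ℂ := {u | dist u z ≤ 1 ∧ e ∈ T' u ∧ f ∈ T' u ∧ ∃ x, x ≠ e ∧ x ≠ f ∧ InnO T' z u x}
    with hK
  have hKc : IsCompact K := by
    have h1 : K = closedBall z 1 ∩ ({u | e ∈ T' u} ∩ ({u | f ∈ T' u} ∩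
        ⋃ x ∈ {x : Fin k | x ≠ e ∧ x ≠ f}, {u | InnO T' z u x})) := by
      ext u
      simp only [hK, mem_ofPred_eq, mem_inter_iff, mem_closedBall, mem_iUnion, exists_prop, and_assoc]
    rw [h1]
    refine (isCompact_closedBall z 1).inter_right ((hcl e).inter ((hcl f).inter ?_))
    exact (Set.toFinite _).isClosed_biUnion fun x _ => isClosed_Inn715 T' z x
  have hN : ∀ u : ℂ, ∃ N : Set ℂ, u ∈ K → IsOpen N ∧ u ∈ N ∧ closure N ⊆ ball z 1 ∧
      ∀ w ∈ frontier N, e ∈ T' w → f ∉ T' w := by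
    intro u
    by_cases hu : u ∈ K
    · obtain ⟨h1, h2, h3, x, h4, h5, h6⟩ := hu
      obtain ⟨N, n1, n2, n3, n4⟩ := hcon u x h1 h2 h3 h4 h5 h6
      exact ⟨N, fun _ => ⟨n1, n2, n3, n4⟩⟩
    · exact ⟨∅, fun h1 => absurd h1 hu⟩
  choose N hN using hN
  obtain ⟨t, htK, htc⟩ := hKc.elim_nhds_subcover N fun u hu =>
    (hN u hu).1.mem_nhds (hN u hu).2.1
  set W : Set ℂ := ⋃ u ∈ t, N u with hW
  have hWo : IsOpen W := isOpen_biUnion fun u hu => (hN u (htK u hu)).1
  have hWc : ∀ w ∈ closure W, ∃ u ∈ t, w ∈ closure (N u) := by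
    intro w hw
    rw [hW, Finset.closure_biUnion] at hw
    simpa using hw
  have hWd : closure W ⊆ ball z 1 := by
    intro w hw
    obtain ⟨u, hu, hwu⟩ := hWc w hw
    exact (hN u (htK u hu)).2.2.1 hwu
  have hWf : ∀ w ∈ closure W, w ∉ W → e ∈ T' w → f ∉ T' w := by
    intro w hw hwW
    obtain ⟨u, hu, hwu⟩ := hWc w hw
    refine (hN u (htK u hu)).2.2.2 w ?_
    rw [(hN u (htK u hu)).1.frontier_eq]
    refine ⟨hwu, fun hcon2 => hwW ?_⟩
    rw [hW]
    exact mem_biUnion hu hcon2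
  obtain ⟨u, x, h1, h2, h3, h4, h5, h6⟩ := hP (recol715 T' W a) (recol_closed715 hcl hWo a)
    (recol_ne715 hne W a) (fun q hq => by
      have hqW : q ∉ closure W := fun hc => by
        have := mem_ball.1 (hWd hc)
        linarith
      rw [← hag q hq]
      ext i
      constructor
      · rintro (⟨-, hc⟩ | ⟨hi, -⟩)
        · exact absurd hc hqW
        · exact hi
      · intro hi
        exact Or.inr ⟨hi, fun hc => hqW (subset_closure hc)⟩)
  have he : e ∈ T' u ∧ u ∉ W := by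
    rcases h2 with ⟨h7, -⟩ | h7
    · exact absurd h7.symm hae
    · exact h7
  have hf : f ∈ T' u := by
    rcases h3 with ⟨h7, -⟩ | h7
    · exact absurd h7.symm haf
    · exact h7.1
  have huc : u ∉ closure W := fun hc => hWf u hc he.2 he.1 hf
  have hInn : InnO T' z u x := by
    unfold InnO at h6 ⊢
    rw [mem_closure_iff_frequently] at h6 ⊢
    have hev : ∀ᶠ y in 𝓝 u, y ∉ closure W := isClosed_closure.isOpen_compl.mem_nhds huc
    refine (h6.and_eventually hev).mono fun y hy => ?_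
    obtain ⟨⟨hy1, hy2⟩, hy3⟩ := hy
    refine ⟨hy1, ?_⟩
    rcases hy2 with ⟨-, h7⟩ | h7
    · exact absurd h7 hy3
    · exact h7.1
  exact he.2 (htc ⟨h1, he.1, hf, x, h4, h5, hInn⟩)

/-- points inside and outside of a circle near a point of the circle -/
theorem in_out_near715 {z w : ℂ} (hwz : dist w z = 1) {P : ℂ → Prop} (hP : ∀ᶠ v in 𝓝 w, P v) :
    (∃ v, 1 < dist v z ∧ P v) ∧ ∃ v, dist v z < 1 ∧ P v := by
  have hn := ip_sq (n := w - z) (by rw [← dist_eq_norm]; exact hwz)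
  have e1 := ray_out169 (v := w) (z := z) (y := w - z) hwz (by
    unfold ip
    simp only [Complex.sub_re, Complex.sub_im] at hn ⊢
    nlinarith)
  have e2 := ray_in169 (v := w) (z := z) (y := -(w - z)) hwz (by
    unfold ip
    simp only [Complex.sub_re, Complex.sub_im, Complex.neg_re, Complex.neg_im] at hn ⊢
    nlinarith)
  obtain ⟨r, h1, h2⟩ := (e1.and ((tendsto_ray169 w (w - z)).eventually hP)).exists
  obtain ⟨r', h1', h2'⟩ := (e2.and ((tendsto_ray169 w (-(w - z))).eventually hP)).exists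
  exact ⟨⟨_, h1, h2⟩, _, h1', h2'⟩

/-- pure points in an open set -/
theorem Irr.exists_pure715 (h : Irr U T) {x : ℂ} {P : ℂ → Prop} (hP : ∀ᶠ v in 𝓝 x, P v) :
    ∃ v i, T v = {i} ∧ P v := by
  obtain ⟨i, hi⟩ := h.ne x
  obtain ⟨v, h1, h2⟩ := ((h.pure x i hi).and_eventually hP).exists
  exact ⟨v, i, h1, h2⟩

/-- pure points near `g` inside and outside `S(u)` -/
theorem Irr.pure_in_out715 (h : Irr U T) {u g : ℂ} {e f : Fin k} (hg : dist g u = 1)
    (hT : T g ⊆ {e, f}) {ε : ℝ} (hε : 0 < ε) :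
    ∃ q q' : ℂ, dist q g < ε ∧ dist q' g < ε ∧ dist q u < 1 ∧ 1 < dist q' u ∧
      (∀ w, dist w q = 1 → ¬ (e ∈ T w ∧ f ∈ T w)) ∧
      ∀ w, dist w q' = 1 → ¬ (e ∈ T w ∧ f ∈ T w) := by
  have hP : ∀ᶠ v in 𝓝 g, ∀ᶠ y in 𝓝 v, dist y g < ε ∧ T y ⊆ {e, f} := by
    rw [eventually_eventually_nhds]
    have h1 : ∀ᶠ y in 𝓝 g, dist y g < ε := Metric.ball_mem_nhds g hε
    filter_upwards [h1, h.nhd g] with y h2 h3
    exact ⟨h2, h3.trans hT⟩
  obtain ⟨⟨v', hv', hP'⟩, v, hv, hPv⟩ := in_out_near715 hg hP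
  have o1 : ∀ᶠ y in 𝓝 v, dist y u < 1 :=
    (continuous_id.dist continuous_const).continuousAt.eventually (Iio_mem_nhds hv)
  have o2 : ∀ᶠ y in 𝓝 v', 1 < dist y u :=
    (continuous_id.dist continuous_const).continuousAt.eventually (Ioi_mem_nhds hv')
  obtain ⟨q, i, hq, hq1, hq2⟩ := h.exists_pure715 (hPv.and o1)
  obtain ⟨q', i', hq', hq1', hq2'⟩ := h.exists_pure715 (hP'.and o2)
  have key : ∀ {q : ℂ} {i : Fin k}, T q = {i} → T q ⊆ {e, f} → ∀ w, dist w q = 1 →
      ¬ (e ∈ T w ∧ f ∈ T w) := by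
    rintro q i hqi hsub w hw ⟨he, hf⟩
    have hi : q ∈ U i := h.mem_of_single hqi.subset
    have hiT : i ∈ T w := by
      rcases hsub (by rw [hqi]; rfl : i ∈ T q) with rfl | h1
      · exact he
      · rw [mem_singleton_iff] at h1; subst h1; exact hf
    exact h.mx.notMem' hi (by rw [dist_comm]; exact hw) (h.sub w hiT)
  exact ⟨q, q', hq1.1, hq1'.1, hq2, hq2', key hq hq1.2, key hq' hq1'.2⟩

theorem perp_three715 {a b c d m n : ℝ} (h1 : a * c + b * d = 0) (h2 : a * m + b * n = 0)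
    (h3 : m * c + n * d = 0) (hcd : c ^ 2 + d ^ 2 ≠ 0) : (a = 0 ∧ b = 0) ∨ (m = 0 ∧ n = 0) := by
  have k2 : (a * n - b * m) * (c ^ 2 + d ^ 2) = 0 := by
    linear_combination (c * n - d * m) * h1 + (a * d - b * c) * h3
  have k3 : a * n - b * m = 0 := by
    rcases mul_eq_zero.1 k2 with h0 | h0
    · exact h0
    · exact absurd h0 hcd
  have k4 : (m ^ 2 + n ^ 2) * (a ^ 2 + b ^ 2) = 0 := by
    linear_combination (a * m + b * n) * h2 + (a * n - b * m) * k3
  have z2 : ∀ x y : ℝ, x ^ 2 + y ^ 2 = 0 → x = 0 ∧ y = 0 := by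
    intro x y h0
    have hx := sq_nonneg x
    have hy := sq_nonneg y
    exact ⟨pow_eq_zero_iff (n := 2) (by norm_num) |>.1 (by linarith),
      pow_eq_zero_iff (n := 2) (by norm_num) |>.1 (by linarith)⟩
  rcases mul_eq_zero.1 k4 with h0 | h0
  · exact Or.inr (z2 _ _ h0)
  · exact Or.inl (z2 _ _ h0)

/-- two common points of two circles -/
theorem circ_two715 {g1 g2 u w : ℂ} (hg : g1 ≠ g2) (e3 : dist w g1 = 1) (e4 : dist w g2 = 1)
    (hg1 : dist g1 u = 1) (hg2 : dist g2 u = 1) : w = u ∨ w = g1 + g2 - u := by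
  have q1 : (w.re - g1.re) ^ 2 + (w.im - g1.im) ^ 2 = 1 := by rw [← sq_dist, e3, one_pow]
  have q2 : (w.re - g2.re) ^ 2 + (w.im - g2.im) ^ 2 = 1 := by rw [← sq_dist, e4, one_pow]
  have q3 : (g1.re - u.re) ^ 2 + (g1.im - u.im) ^ 2 = 1 := by rw [← sq_dist, hg1, one_pow]
  have q4 : (g2.re - u.re) ^ 2 + (g2.im - u.im) ^ 2 = 1 := by rw [← sq_dist, hg2, one_pow]
  have hgg : (g1.re - g2.re) ^ 2 + (g1.im - g2.im) ^ 2 ≠ 0 := by
    rw [← sq_dist]
    exact pow_ne_zero 2 (dist_ne_zero.2 hg)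
  rcases perp_three715 (a := w.re - u.re) (b := w.im - u.im) (c := g1.re - g2.re)
    (d := g1.im - g2.im) (m := w.re - (g1.re + g2.re - u.re)) (n := w.im - (g1.im + g2.im - u.im))
    (by linear_combination (1 / 2) * (q2 - q1) + (1 / 2) * (q3 - q4))
    (by linear_combination (1 / 2) * (q1 - q3) + (1 / 2) * (q2 - q4))
    (by linear_combination (1 / 2) * (q2 - q1) + (1 / 2) * (q3 - q4) - (q3 - q4)) hgg with h | h
  · left
    exact Complex.ext (by linarith [h.1]) (by linarith [h.2])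
  · right
    refine Complex.ext ?_ ?_
    · simp only [Complex.add_re, Complex.sub_re]; linarith [h.1]
    · simp only [Complex.add_im, Complex.sub_im]; linarith [h.2]

/-- **removable points** -/
theorem Irr.rem715 (h : Irr U T) {u g1 g2 : ℂ} {e f : Fin k} (hg1 : dist g1 u = 1)
    (hg2 : dist g2 u = 1) (hg : g1 ≠ g2) (h1 : T g1 ⊆ {e, f}) (h2 : T g2 ⊆ {e, f}) {r : ℝ}
    (hr : 0 < r) : ∃ N, IsOpen N ∧ u ∈ N ∧ closure N ⊆ ball u r ∧
      ∀ w ∈ frontier N, ¬ (e ∈ T w ∧ f ∈ T w) := by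
  -- a radius
  obtain ⟨s, hs0, hsr, hs1⟩ : ∃ s : ℝ, 0 < s ∧ s < r ∧ (g1 + g2 - u ≠ u → s < dist (g1 + g2 - u) u) := by
    by_cases h3 : g1 + g2 - u = u
    · exact ⟨r / 2, by linarith, by linarith, fun h4 => absurd h3 h4⟩
    · have h4 : 0 < dist (g1 + g2 - u) u := dist_pos.2 h3
      refine ⟨min (r / 2) (dist (g1 + g2 - u) u / 2), by positivity, ?_, fun _ => ?_⟩
      · exact lt_of_le_of_lt (min_le_left _ _) (by linarith)
      · exact lt_of_le_of_lt (min_le_right _ _) (by linarith)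
  -- the annulus
  set A : Set ℂ := closedBall u s ∩ {w | s / 2 ≤ dist w u} with hA
  have hAc : IsCompact A := (isCompact_closedBall u s).inter_right
    (isClosed_le continuous_const (continuous_id.dist continuous_const))
  obtain ⟨ε, hε, hεA⟩ : ∃ ε > 0, ∀ w ∈ A, ε ≤ |dist w g1 - 1| ⊔ |dist w g2 - 1| := by
    have hcont : Continuous fun w : ℂ => |dist w g1 - 1| ⊔ |dist w g2 - 1| := by fun_prop
    rcases A.eq_empty_or_nonempty with h3 | h3
    · exact ⟨1, one_pos, fun w hw => by rw [h3] at hw; exact absurd hw (notMem_empty w)⟩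
    · obtain ⟨w0, hw0, hmin⟩ := hAc.exists_isMinOn h3 hcont.continuousOn
      refine ⟨_, ?_, fun w hw => hmin hw⟩
      by_contra h4
      push Not at h4
      have e1 : |dist w0 g1 - 1| ≤ 0 := (le_max_left _ _).trans h4
      have e2 : |dist w0 g2 - 1| ≤ 0 := (le_max_right _ _).trans h4
      have e3 : dist w0 g1 = 1 := by
        have := abs_nonpos_iff.1 e1; linarith
      have e4 : dist w0 g2 = 1 := by
        have := abs_nonpos_iff.1 e2; linarith
      have e5 := circ_two715 hg e3 e4 hg1 hg2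
      have hw0s : dist w0 u ≤ s := hw0.1
      have hw0s' : s / 2 ≤ dist w0 u := hw0.2
      rcases e5 with rfl | e5
      · rw [dist_self] at hw0s'
        linarith
      · have hne : g1 + g2 - u ≠ u := by
          intro h5
          rw [e5, h5, dist_self] at hw0s'
          linarith
        have := hs1 hne
        rw [e5] at hw0s
        linarith
  obtain ⟨q1, p1, a1, a2, a3, a4, a5, a6⟩ := h.pure_in_out715 hg1 h1 hε
  obtain ⟨q2, p2, b1, b2, b3, b4, b5, b6⟩ := h.pure_in_out715 hg2 h2 hε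
  set N : Set ℂ := {w | dist w q1 < 1 ∧ 1 < dist w p1 ∧ dist w q2 < 1 ∧ 1 < dist w p2 ∧
    dist w u < s} with hNdef
  have hNo : IsOpen N := by
    have d : ∀ c : ℂ, Continuous fun w : ℂ => dist w c := fun c => continuous_id.dist continuous_const
    have : N = {w | dist w q1 < 1} ∩ ({w | 1 < dist w p1} ∩ ({w | dist w q2 < 1} ∩
        ({w | 1 < dist w p2} ∩ {w | dist w u < s}))) := rfl
    rw [this]
    exact (isOpen_lt (d q1) continuous_const).inter ((isOpen_lt continuous_const (d p1)).inter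
      ((isOpen_lt (d q2) continuous_const).inter ((isOpen_lt continuous_const (d p2)).inter
      (isOpen_lt (d u) continuous_const))))
  have huN : u ∈ N := ⟨by rw [dist_comm]; exact a3, by rw [dist_comm]; exact a4,
    by rw [dist_comm]; exact b3, by rw [dist_comm]; exact b4, by rw [dist_self]; exact hs0⟩
  have hNc : ∀ w ∈ closure N, dist w q1 ≤ 1 ∧ 1 ≤ dist w p1 ∧ dist w q2 ≤ 1 ∧ 1 ≤ dist w p2 ∧
      dist w u ≤ s := by
    intro w hw
    have d : ∀ c : ℂ, Continuous fun w : ℂ => dist w c := fun c => continuous_id.dist continuous_const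
    have hcl : IsClosed ({w | dist w q1 ≤ 1} ∩ ({w | 1 ≤ dist w p1} ∩ ({w | dist w q2 ≤ 1} ∩
        ({w | 1 ≤ dist w p2} ∩ {w | dist w u ≤ s})))) :=
      (isClosed_le (d q1) continuous_const).inter ((isClosed_le continuous_const (d p1)).inter
      ((isClosed_le (d q2) continuous_const).inter ((isClosed_le continuous_const (d p2)).inter
      (isClosed_le (d u) continuous_const))))
    have hsub : N ⊆ {w | dist w q1 ≤ 1} ∩ ({w | 1 ≤ dist w p1} ∩ ({w | dist w q2 ≤ 1} ∩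
        ({w | 1 ≤ dist w p2} ∩ {w | dist w u ≤ s}))) := by
      rintro w ⟨w1, w2, w3, w4, w5⟩
      exact ⟨w1.le, w2.le, w3.le, w4.le, w5.le⟩
    exact closure_minimal hsub hcl hw
  -- the closure avoids the annulus
  have hav : ∀ w ∈ closure N, dist w u < s / 2 := by
    intro w hw
    obtain ⟨n1, n2, n3, n4, n5⟩ := hNc w hw
    by_contra h3
    push Not at h3
    have h4 := hεA w ⟨n5, h3⟩
    rcases le_max_iff.1 h4 with h5 | h5
    · rcases le_abs.1 h5 with h6 | h6
      · have := dist_triangle w q1 g1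
        linarith
      · have := dist_triangle w g1 p1
        rw [dist_comm g1 p1] at this
        linarith
    · rcases le_abs.1 h5 with h6 | h6
      · have := dist_triangle w q2 g2
        linarith
      · have := dist_triangle w g2 p2
        rw [dist_comm g2 p2] at this
        linarith
  refine ⟨N, hNo, huN, fun w hw => mem_ball.2 (by have := hav w hw; linarith), ?_⟩
  intro w hw
  rw [hNo.frontier_eq] at hw
  obtain ⟨n1, n2, n3, n4, -⟩ := hNc w hw.1
  have n5 := hav w hw.1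
  rcases n1.lt_or_eq with m1 | m1
  · rcases n2.lt_or_eq with m2 | m2
    · rcases n3.lt_or_eq with m3 | m3
      · rcases n4.lt_or_eq with m4 | m4
        · exact absurd ⟨m1, m2, m3, m4, by linarith⟩ hw.2
        · exact b6 w m4.symm
      · exact b5 w m3
    · exact a6 w m2.symm
  · exact a5 w m1

/-- one point of `S(u)` with palette inside `{e, f} ⊆ T u` gives two -/
theorem Irr.two_pts715 (h : Irr U T) {u g : ℂ} {e f : Fin k} (he : e ∈ T u) (hf : f ∈ T u)
    (hg : dist g u = 1) (hT : T g ⊆ {e, f}) :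
    ∃ g2, dist g2 u = 1 ∧ g ≠ g2 ∧ T g2 ⊆ {e, f} := by
  have hsub : T g ⊆ T u := by
    intro i hi
    rcases hT hi with rfl | h1
    · exact he
    · rw [mem_singleton_iff] at h1; subst h1; exact hf
  obtain ⟨q, -, hqu, hloc, hqg, -, -⟩ := h.arc_of_sub hg hsub univ_mem
  obtain ⟨q', -, hqz, hqy, -, hJq⟩ := exists_generic (y := g) hqu hloc
  refine ⟨q', hqz, hqy.symm, ?_⟩
  have hJq' : ∀ᶠ x in 𝓝[sphere u 1] q', T x = T q := hJq
  have h1 : T q' = T q := hJq'.self_of_nhdsWithin (show q' ∈ sphere u 1 from hqz)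
  rw [h1]
  exact hqg.trans hT

/-- **the parity lemma with a non-removable point** -/
theorem Irr.par715 (h : Irr U T) {z : ℂ} {e f : Fin k} (hP : Par T z e f)
    (hO : ∀ u, dist u z = 1 → e ∈ T u → f ∈ T u → (T u).ncard ≤ 3) {T' : ℂ → Set (Fin k)}
    (hcl : ∀ i, IsClosed {x | i ∈ T' x}) (hne : ∀ x, (T' x).Nonempty)
    (hag : ∀ q, dist q z = 1 → T' q = T q) (hTe : ∀ w, e ∈ T' w → e ∈ T w)
    (hTf : ∀ w, f ∈ T' w → f ∈ T w) :
    ∃ u x, dist u z ≤ 1 ∧ e ∈ T' u ∧ f ∈ T' u ∧ x ≠ e ∧ x ≠ f ∧ InnO T' z u x ∧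
      ∀ g, dist g u = 1 → ¬ T g ⊆ {e, f} := by
  obtain ⟨u, x, h1, h2, h3, h4, h5, h6, h7⟩ := hP.core715 hcl hne hag
  refine ⟨u, x, h1, h2, h3, h4, h5, h6, fun g hg hgT => ?_⟩
  have he := hTe u h2
  have hf := hTf u h3
  rcases h1.lt_or_eq with h8 | h8
  · obtain ⟨g2, e1, e2, e3⟩ := h.two_pts715 he hf hg hgT
    obtain ⟨N, n1, n2, n3, n4⟩ := h.rem715 hg e1 e2 hgT e3 (r := 1 - dist u z) (by linarith)
    obtain ⟨w, hw, hw1, hw2⟩ := h7 N n1 n2 (n3.trans fun w hw => by
      rw [mem_ball] at hw ⊢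
      have := dist_triangle w u z
      linarith)
    exact n4 w hw ⟨hTe w hw1, hTf w hw2⟩
  · refine h.not_sub hg (hO u h8 he hf) fun i hi => ?_
    rcases hgT hi with rfl | h9
    · exact he
    · rw [mem_singleton_iff] at h9; subst h9; exact hf

/-- **parity and filling with a non-removable point** -/
theorem Irr.par_fill715 (h : Irr U T) {a e f : Fin k} {z : ℂ} {W Z : Set ℂ} (hW : W.Finite)
    (hzW : z ∈ W) (hP : Par T z e f)
    (hO : ∀ u, dist u z = 1 → e ∈ T u → f ∈ T u → (T u).ncard ≤ 3)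
    (hZ : ∀ z, (∀ w ∈ W, dist z w ≤ 1) → (∃ w ∈ W, dist z w = 1) → z ∈ Z)
    (hZT : ∀ y ∈ Z, a ∈ T y ∧ e ∉ T y) (hae : a ≠ e) (haf : a ≠ f) :
    ∃ u x, dist u z ≤ 1 ∧ e ∈ T u ∧ f ∈ T u ∧ x ∈ T u ∧ x ≠ e ∧ x ≠ f ∧ InnO T z u x ∧
      (∃ w ∈ W, 1 < dist u w) ∧ ∀ g, dist g u = 1 → ¬ T g ⊆ {e, f} := by
  have hQ : IsOpen (lens802 W) := isOpen_lens802 hW
  obtain ⟨u, x, h1, h2, h3, h4, h5, h6, hno⟩ := h.par715 hP hO (T' := recol715 T (lens802 W) a)
    (recol_closed715 h.closed hQ a) (recol_ne715 h.ne _ a)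
    (fun q hq => by
      have hqQ : q ∉ lens802 W := fun hcon => by
        have := hcon z hzW
        linarith
      ext i
      constructor
      · rintro (⟨rfl, hc⟩ | ⟨hi, -⟩)
        · exact (hZT q (hZ q (closure_lens802 hc) ⟨z, hzW, hq⟩)).1
        · exact hi
      · intro hi
        exact Or.inr ⟨hi, hqQ⟩)
    (fun w hw => by
      rcases hw with ⟨h7, -⟩ | h7
      · exact absurd h7.symm hae
      · exact h7.1)
    (fun w hw => by
      rcases hw with ⟨h7, -⟩ | h7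
      · exact absurd h7.symm haf
      · exact h7.1)
  have he : e ∈ T u ∧ u ∉ lens802 W := by
    rcases h2 with ⟨h7, -⟩ | h7
    · exact absurd h7.symm hae
    · exact h7
  have hf : f ∈ T u := by
    rcases h3 with ⟨h7, -⟩ | h7
    · exact absurd h7.symm haf
    · exact h7.1
  have hout : ∃ w ∈ W, 1 < dist u w := by
    by_contra hcon
    push Not at hcon
    have h7 : ∃ w ∈ W, dist u w = 1 := by
      by_contra hcon2
      push Not at hcon2
      exact he.2 fun w hw => lt_of_le_of_ne (hcon w hw) (hcon2 w hw)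
    exact (hZT u (hZ u hcon h7)).2 he.1
  have huc : u ∉ closure (lens802 W) := by
    intro hcon
    obtain ⟨w, hw, hw1⟩ := hout
    have := closure_lens802 hcon w hw
    linarith
  have hInn : InnO T z u x := by
    unfold InnO at h6 ⊢
    rw [mem_closure_iff_frequently] at h6 ⊢
    have hev : ∀ᶠ y in 𝓝 u, y ∉ closure (lens802 W) :=
      isClosed_closure.isOpen_compl.mem_nhds huc
    refine (h6.and_eventually hev).mono fun y hy => ?_
    obtain ⟨⟨hy1, hy2⟩, hy3⟩ := hy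
    refine ⟨hy1, ?_⟩
    rcases hy2 with ⟨-, h7⟩ | h7
    · exact absurd h7 hy3
    · exact h7.1
  refine ⟨u, x, h1, he.1, hf, ?_, h4, h5, hInn, hout, hno⟩
  exact closure_minimal (s := {w | dist w z < 1 ∧ x ∈ T w}) (t := {w | x ∈ T w})
    (fun y hy => hy.2) (h.closed x) hInn

end Vale.Agent.P032.Six
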