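import Vale.Agent.P032.H715.Sector
import Vale.Agent.P032.H169.Chain

/-!
# P032: the sides of the arcs of a J-chain

`JCh.sides` : inner colour `I i` and outer colour `O i` of the closed arc number `i` (centre `V (i+1)`).
`JCh.collar` : the collars at the inner points.
-/

open Set Filter Topology Metric

noncomputable section

namespace Vale.Agent.P032.Six

open Vale.Agent.P032.H715

variable {k : ℕ} {U : Fin k → Set ℂ} {T : ℂ → Set (Fin k)} {V : ℕ → ℂ} {ρ : ℕ → ℝ}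
  {S : Set (Fin k)} {C : ℕ → Set (Fin k)}

theorem continuous_arcPt (V : ℕ → ℂ) (i : ℕ) : Continuous (arcPt V i) :=
  continuous_const.add (continuous_const.mul continuous_cis)

/-- the two colours of the arc are present on the closed arc -/
theorem JCh.mem_closed (h : Irr U T) (J : JCh T V ρ S C) (i : ℕ) {x : Fin k} (hx : x ∈ C (i + 1))
    {θ : ℝ} (hθ : θ ∈ uIcc (ρ i) (ρ (i + 1))) : x ∈ T (arcPt V i θ) := by
  have hcl : IsClosed {θ | x ∈ T (arcPt V i θ)} := (h.closed x).preimage (continuous_arcPt V i)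
  have h1 : uIoo (ρ i) (ρ (i + 1)) ⊆ {θ | x ∈ T (arcPt V i θ)} := fun θ hθ => by
    show x ∈ T (arcPt V i θ)
    rw [J.arc i θ hθ]; exact hx
  have h2 : uIcc (ρ i) (ρ (i + 1)) = closure (uIoo (ρ i) (ρ (i + 1))) := by
    unfold uIoo
    rw [closure_Ioo (by
      rw [Ne, inf_eq_sup]
      exact (J.rods.ne i).symm)]
    rfl
  rw [h2] at hθ
  exact closure_minimal h1 hcl hθ

/-- **sides of one arc** -/
theorem JCh.sides_one (h : Irr U T) (J : JCh T V ρ S C) (i : ℕ) : ∃ I O : Fin k, I ≠ O ∧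
    C (i + 1) = {I, O} ∧ ∀ θ ∈ uIcc (ρ i) (ρ (i + 1)), Sd U (V (i + 1)) (arcPt V i θ) I O := by
  obtain ⟨a, b, c, d, hC, hD⟩ := J.dpt (i + 1)
  have hQ : IsPreconnected (arcPt V i '' uIcc (ρ i) (ρ (i + 1))) :=
    isPreconnected_uIcc.image _ (continuous_arcPt V i).continuousOn
  rcases sd_const h hD hQ (by rintro _ ⟨θ, -, rfl⟩; exact Rods.dist_arc V i θ) (by
    rintro _ ⟨θ, hθ, rfl⟩
    exact Or.inl (J.mem_closed h i (by rw [hC]; simp) hθ)) with h1 | h1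
  · exact ⟨a, b, hD.ab, hC, fun θ hθ => h1 _ ⟨θ, hθ, rfl⟩⟩
  · exact ⟨b, a, hD.ab.symm, by rw [hC, pair_comm], fun θ hθ => h1 _ ⟨θ, hθ, rfl⟩⟩

/-- **row (A)** -/
theorem JCh.sides (h : Irr U T) (J : JCh T V ρ S C) : ∃ I O : ℕ → Fin k, ∀ i, I i ≠ O i ∧
    C (i + 1) = {I i, O i} ∧
    ∀ θ ∈ uIcc (ρ i) (ρ (i + 1)), Sd U (V (i + 1)) (arcPt V i θ) (I i) (O i) := by
  choose I O hIO using fun i => J.sides_one h i
  exact ⟨I, O, hIO⟩

/-- **collars** at the inner points of an arc -/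
theorem JCh.collar (h : Irr U T) (J : JCh T V ρ S C) {i : ℕ} {I O : Fin k}
    (hC : C (i + 1) = {I, O})
    (hs : ∀ θ ∈ uIcc (ρ i) (ρ (i + 1)), Sd U (V (i + 1)) (arcPt V i θ) I O) {θ : ℝ}
    (hθ : θ ∈ uIoo (ρ i) (ρ (i + 1))) :
    ∀ᶠ x in 𝓝 (arcPt V i θ), (dist x (V (i + 1)) < 1 → T x = {I} ∧ x ∈ U I) ∧
      (1 < dist x (V (i + 1)) → T x = {O} ∧ x ∈ U O) := by
  have h1 := Vale.Agent.P032.H715.collar h (z := V (i + 1)) (p := arcPt V i θ) (a := I) (b := O)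
    (by rw [J.arc i θ hθ, hC]) (hs θ ⟨hθ.1.le, hθ.2.le⟩)
  filter_upwards [h1] with x hx
  exact ⟨fun h3 => ⟨hx.1 h3, h.mem_of_single (hx.1 h3).subset⟩,
    fun h3 => ⟨hx.2 h3, h.mem_of_single (hx.2 h3).subset⟩⟩

end Vale.Agent.P032.Six
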