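import Vale.Agent.P032.H169.Sector
import Vale.Agent.P032.H715.Sides
import Vale.Agent.P032.S5.H824.Two

/-!
# P032: the third colour of a free vertex in the disc of a J-chain centre

`JCh.common'` : a point `u` of the closed disc about `V (i+2)` with the colours `e, f ∉ S`, the
third colour `x ∈ S` from the inside of `S (V (i+2))`, whose common points with the three circles are
limits of points with palette inside `S \ {x}`: then `x` is a colour of the three arcs, and at a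
junction with the same orientation `u` is in the open disc.
-/

open Set Filter Topology Metric

noncomputable section

namespace Vale.Agent.P032.Six

variable {k : ℕ} {U : Fin k → Set ℂ} {T : ℂ → Set (Fin k)}

/-- locally constant palettes of `S(z)` inside `T z` are the two pairs -/
theorem Irr.pairs715 (h : Irr U T) {z q : ℂ} {a b c d : Fin k} (hz : DPt T z a b c d)
    (hq : dist q z = 1) (hloc : ∀ᶠ q' in 𝓝[sphere z 1] q, T q' = T q) (hsub : T q ⊆ T z) :
    T q = {a, b} ∨ T q = {c, d} := by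
  have hX : z ∈ XX U := by
    obtain ⟨i, hi⟩ := h.ne q
    exact h.mem_XX (by rw [dist_comm]; exact hq) (hsub hi) (h.sub q hi)
  have hge : 2 ≤ (T z \ T q).ncard := h.gap_two hX hq (hloc.mono fun q' hq' => by
    rw [← hq']; exact h.sub q')
  have h4 : (T z).ncard ≤ 4 := by
    rw [hz.pal]
    refine (Set.ncard_insert_le _ _).trans ?_
    refine (Nat.succ_le_succ (Set.ncard_insert_le _ _)).trans ?_
    refine (Nat.succ_le_succ (Nat.succ_le_succ (Set.ncard_insert_le _ _))).trans ?_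
    simp
  have hle : (T q).ncard ≤ 2 := by
    have := Set.ncard_sdiff hsub (Set.toFinite _)
    have := Set.ncard_le_ncard hsub (Set.toFinite _)
    omega
  have hns : ∀ i, T q ≠ {i} := by
    intro i hi
    have h5 : q ∈ U i := h.mem_of_single (by rw [hi])
    exact h.mx.notMem' h5 hq (h.sub z (hsub (by rw [hi]; rfl)))
  have hgt : 1 < (T q).ncard := by
    have h5 : 0 < (T q).ncard := (Set.ncard_pos (Set.toFinite _)).2 (h.ne q)
    by_contra hcon
    have h6 : (T q).ncard = 1 := by omega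
    obtain ⟨i, hi⟩ := Set.ncard_eq_one.1 h6
    exact hns i hi
  obtain ⟨i, j, hij, hTq⟩ := Set.ncard_eq_two.1 (show (T q).ncard = 2 by omega)
  have hA : ∀ P, T q = P → Arc T z q P := fun P hP => ⟨hq, by rw [← hP]; exact hloc⟩
  have hi : i = a ∨ i = b ∨ i = c ∨ i = d := by
    have : i ∈ T z := hsub (by rw [hTq]; simp)
    rw [hz.pal] at this
    simpa using this
  have hj : j = a ∨ j = b ∨ j = c ∨ j = d := by
    have : j ∈ T z := hsub (by rw [hTq]; simp)
    rw [hz.pal] at this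
    simpa using this
  have x1 : T q ≠ {a, c} := fun e => h.no_cross hz (hA _ e)
  have x2 : T q ≠ {a, d} := fun e => h.no_cross hz.swap34 (hA _ e)
  have x3 : T q ≠ {b, c} := fun e => h.no_cross hz.swap12 (hA _ e)
  have x4 : T q ≠ {b, d} := fun e => h.no_cross hz.swap12.swap34 (hA _ e)
  rcases hi with rfl | rfl | rfl | rfl <;> rcases hj with rfl | rfl | rfl | rfl
  · exact absurd rfl hij
  · exact Or.inl hTq
  · exact absurd hTq x1
  · exact absurd hTq x2
  · exact Or.inl (by rw [hTq, pair_comm])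
  · exact absurd rfl hij
  · exact absurd hTq x3
  · exact absurd hTq x4
  · exact absurd (by rw [hTq, pair_comm]) x1
  · exact absurd (by rw [hTq, pair_comm]) x3
  · exact absurd rfl hij
  · exact Or.inr hTq
  · exact absurd (by rw [hTq, pair_comm]) x2
  · exact absurd (by rw [hTq, pair_comm]) x4
  · exact Or.inr (by rw [hTq, pair_comm])
  · exact absurd rfl hij

/-- a point with palette inside `T z \ {x}`, `x` not a colour of the pair `{a, b}`, is a limit of
points with palette `{a, b}` -/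
theorem Irr.pair_near715 (h : Irr U T) {z q : ℂ} {a b c d x : Fin k} (hz : DPt T z a b c d)
    (hq : dist q z = 1) (hsub : T q ⊆ T z) (hxz : x ∈ T z) (hx : x ∉ T q)
    (hxab : x ∉ ({a, b} : Set (Fin k))) : q ∈ closure {q | dist q z = 1 ∧ T q = {a, b}} := by
  rw [mem_closure_iff_nhds]
  intro V hV
  obtain ⟨q', hq'V, hq'z, hloc, hsub', -, -⟩ := h.arc_of_sub hq hsub hV
  refine ⟨q', hq'V, hq'z, ?_⟩
  rcases h.pairs715 hz hq'z hloc (hsub'.trans hsub) with h1 | h1
  · exact h1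
  · exfalso
    apply hx
    apply hsub'
    rw [h1]
    rw [hz.pal] at hxz
    simp only [mem_insert_iff, mem_singleton_iff, not_or] at hxz hxab ⊢
    tauto

/-- two common points of two unit circles -/
theorem exists_common715 {u c : ℂ} (hd : dist u c ≤ 2) : ∃ p p' : ℂ, dist p u = 1 ∧ dist p c = 1 ∧
    dist p' u = 1 ∧ dist p' c = 1 ∧ p + p' = u + c := by
  obtain ⟨φ, hφ⟩ : ∃ φ : ℝ, u - c = (dist u c : ℂ) * cis φ := by
    refine ⟨(u - c).arg, ?_⟩
    rw [dist_eq_norm, cis, Complex.norm_mul_exp_arg_mul_I]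
  have h0 := dist_nonneg (x := u) (y := c)
  have hcont : Continuous fun t : ℝ => dist (c + cis t) u :=
    (continuous_const.add continuous_cis).dist continuous_const
  have e1 : dist (c + cis φ) u ≤ 1 := by
    have e : c + cis φ - u = ((1 - dist u c : ℝ) : ℂ) * cis φ := by
      push_cast
      linear_combination -hφ
    rw [dist_eq_norm, e, norm_mul, norm_cis, mul_one, Complex.norm_real, Real.norm_eq_abs, abs_le]
    constructor <;> linarith
  have e2 : 1 ≤ dist (c + cis (φ + Real.pi)) u := by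
    have e : c + cis (φ + Real.pi) - u = ((-(1 + dist u c) : ℝ) : ℂ) * cis φ := by
      rw [cis_add_pi169]
      push_cast
      linear_combination -hφ
    rw [dist_eq_norm, e, norm_mul, norm_cis, mul_one, Complex.norm_real, Real.norm_eq_abs, abs_neg]
    exact le_trans (by linarith) (le_abs_self _)
  obtain ⟨t, ht⟩ := mem_range_of_exists_le_of_exists_ge hcont ⟨_, e1⟩ ⟨_, e2⟩
  have hc : dist (c + cis t) c = 1 := by rw [dist_eq_norm, add_sub_cancel_left, norm_cis]
  refine ⟨c + cis t, u + c - (c + cis t), ht, hc, ?_, ?_, by ring⟩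
  · rw [dist_eq_norm, show u + c - (c + cis t) - u = -(c + cis t - c) by ring, norm_neg,
      ← dist_eq_norm]
    exact hc
  · rw [dist_eq_norm, show u + c - (c + cis t) - c = -(c + cis t - u) by ring, norm_neg,
      ← dist_eq_norm]
    exact ht

/-- sum of two directions of a short interval -/
theorem two_dir715 {s t : ℝ} (h : |s - t| ≤ Real.pi / 3) : 1 < ‖cis s + cis t‖ := by
  have e : ‖cis s + cis t‖ ^ 2 = 2 + 2 * Real.cos (s - t) := by
    rw [norm_sq169]
    simp only [Complex.add_re, Complex.add_im, cis_re, cis_im]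
    rw [Real.cos_sub]
    linear_combination Real.sin_sq_add_cos_sq s + Real.sin_sq_add_cos_sq t
  have h1 : 0 < Real.cos (s - t) := by
    rw [abs_le] at h
    have := Real.pi_pos
    exact Real.cos_pos_of_mem_Ioo ⟨by linarith, by linarith⟩
  have h2 := norm_nonneg (cis s + cis t)
  nlinarith

/-- a unit vector of the closed cone of a short interval -/
theorem cone_inv715 {a b α β : ℝ} (hab : |b - a| ≤ Real.pi / 3) (hα : 0 ≤ α) (hβ : 0 ≤ β)
    (hn : ‖(α : ℂ) * cis a + β * cis b‖ = 1) : ∃ θ ∈ uIcc a b, (α : ℂ) * cis a + β * cis b = cis θ := by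
  have hpi := Real.pi_pos
  have hcont : ContinuousOn (fun θ : ℝ => α * Real.sin (a - θ) + β * Real.sin (b - θ)) (uIcc a b) := by
    fun_prop
  have h0 : (0 : ℝ) ∈ uIcc (α * Real.sin (a - a) + β * Real.sin (b - a))
      (α * Real.sin (a - b) + β * Real.sin (b - b)) := by
    rw [sub_self, sub_self, Real.sin_zero, mul_zero, mul_zero, zero_add, add_zero,
      ← neg_sub b a, Real.sin_neg, mul_neg, mem_uIcc]
    rw [abs_le] at hab
    rcases le_total 0 (b - a) with h1 | h1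
    · right
      have := Real.sin_nonneg_of_nonneg_of_le_pi h1 (by linarith)
      exact ⟨by linarith [mul_nonneg hα this], mul_nonneg hβ this⟩
    · left
      have := Real.sin_nonpos_of_nonpos_of_neg_pi_le h1 (by linarith)
      exact ⟨mul_nonpos_of_nonneg_of_nonpos hβ this, by
        linarith [mul_nonpos_of_nonneg_of_nonpos hα this]⟩
  obtain ⟨θ, hθ, hθ0⟩ := intermediate_value_uIcc hcont h0
  refine ⟨θ, hθ, ?_⟩
  simp only at hθ0
  -- the vector is a multiple of `cis θ`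
  set s := α * Real.cos (a - θ) + β * Real.cos (b - θ) with hs
  have key : (α : ℂ) * cis a + β * cis b = (s : ℂ) * cis θ := by
    have e1 : ∀ c : ℝ, cis c = cis (c - θ) * cis θ := by
      intro c
      rw [← cis_add169, sub_add_cancel]
    rw [e1 a, e1 b]
    have e2 : ∀ c : ℝ, cis c = (Real.cos c : ℂ) + (Real.sin c : ℂ) * Complex.I := by
      intro c
      rw [cis, Complex.exp_mul_I, Complex.ofReal_cos, Complex.ofReal_sin]
    rw [e2 (a - θ), e2 (b - θ), hs]
    have h3 : ((α * Real.sin (a - θ) + β * Real.sin (b - θ) : ℝ) : ℂ) = 0 := by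
      rw [hθ0]; simp
    push_cast at h3 ⊢
    linear_combination (Complex.I * cis θ) * h3
  have hsn : 0 ≤ s := by
    have hc : ∀ c, c ∈ uIcc a b → 0 ≤ Real.cos (c - θ) := by
      intro c hc
      have h1 : |c - θ| ≤ |b - a| := by
        rw [abs_sub_comm]
        exact Set.abs_sub_le_of_uIcc_subset_uIcc (Set.uIcc_subset_uIcc hc hθ)
      have h2 := h1.trans hab
      rw [abs_le] at h2
      exact Real.cos_nonneg_of_mem_Icc ⟨by linarith, by linarith⟩
    rw [hs]
    exact add_nonneg (mul_nonneg hα (hc a left_mem_uIcc)) (mul_nonneg hβ (hc b right_mem_uIcc))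
  rw [key, norm_mul, norm_cis, mul_one, Complex.norm_real, Real.norm_of_nonneg hsn] at hn
  rw [key, hn, Complex.ofReal_one, one_mul]

/-- angles at distance less than `2π` -/
theorem cis_inj715 {s t : ℝ} (h : cis s = cis t) (hd : |s - t| < 2 * Real.pi) : s = t := by
  have h3 : cis (s - t) = 1 := by
    have h4 : cis s * cis (-t) = cis (s - t) := by rw [← cis_add169]; rfl
    rw [← h4, h, ← cis_add169, add_neg_cancel, cis_zero169]
  have h5 : Real.cos (s - t) = 1 := by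
    have := congrArg Complex.re h3
    simpa [cis_re] using this
  rw [abs_lt] at hd
  have := (Real.cos_eq_one_iff_of_lt_of_lt (by linarith) hd.2).1 h5
  linarith

/-- the two intervals at a junction with the same orientation have one common point -/
theorem junction_pt715 {r0 r1 r2 θ θ' : ℝ} (h1 : |r1 - r0| ≤ Real.pi / 3)
    (h2 : |r2 - r1| ≤ Real.pi / 3) (hs : 0 < (r1 - r0) * (r2 - r1)) (hθ : θ ∈ uIcc r0 r1)
    (hθ' : θ' ∈ uIcc r1 r2) (hc : cis θ = cis θ') : θ = r1 ∧ θ' = r1 := by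
  have hpi := Real.pi_pos
  have a1 : |θ - r1| ≤ Real.pi / 3 := by
    refine le_trans ?_ h1
    have := Set.abs_sub_le_of_uIcc_subset_uIcc (Set.uIcc_subset_uIcc hθ
      (right_mem_uIcc (a := r0) (b := r1)))
    rw [abs_sub_comm]
    exact this
  have a2 : |r1 - θ'| ≤ Real.pi / 3 := by
    refine le_trans ?_ h2
    have := Set.abs_sub_le_of_uIcc_subset_uIcc (Set.uIcc_subset_uIcc hθ'
      (left_mem_uIcc (a := r1) (b := r2)))
    exact this
  have h3 : θ = θ' := by
    refine cis_inj715 hc ?_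
    have := abs_sub_le θ r1 θ'
    linarith
  subst h3
  rw [mem_uIcc] at hθ hθ'
  have h4 : θ = r1 := by
    rcases lt_or_ge 0 (r1 - r0) with h5 | h5
    · have h6 : 0 < r2 - r1 := (mul_pos_iff_of_pos_left h5).1 hs
      rcases hθ with h7 | h7 <;> rcases hθ' with h8 | h8 <;> linarith [h7.1, h7.2, h8.1, h8.2]
    · have h5' : r1 - r0 < 0 := by
        refine lt_of_le_of_ne h5 fun h6 => ?_
        rw [h6, zero_mul] at hs
        exact lt_irrefl _ hs
      have h6 : r2 - r1 < 0 := by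
        by_contra h7
        push Not at h7
        nlinarith
      rcases hθ with h7 | h7 <;> rcases hθ' with h8 | h8 <;> linarith [h7.1, h7.2, h8.1, h8.2]
  exact ⟨h4, h4⟩

/-- a vector with nonnegative inner products with all directions of the open dual cone -/
theorem dual_cone715 {p q w : ℂ} (hcr : cr p q ≠ 0)
    (h : ∀ y, 0 < ip y p → 0 < ip y q → 0 ≤ ip y w) :
    ∃ α β : ℝ, 0 ≤ α ∧ 0 ≤ β ∧ w = α * p + β * q := by
  obtain ⟨α, β, hw⟩ : ∃ α β : ℝ, w = α * p + β * q := by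
    refine ⟨cr w q / cr p q, cr p w / cr p q, ?_⟩
    apply Complex.ext
    · rw [Complex.add_re, Complex.re_ofReal_mul, Complex.re_ofReal_mul, div_mul_eq_mul_div,
        div_mul_eq_mul_div, ← add_div, eq_div_iff hcr]
      unfold cr; ring
    · rw [Complex.add_im, Complex.im_ofReal_mul, Complex.im_ofReal_mul, div_mul_eq_mul_div,
        div_mul_eq_mul_div, ← add_div, eq_div_iff hcr]
      unfold cr; ring
  have key : ∀ s t : ℝ, 0 < s → 0 < t → 0 ≤ α * s + β * t := by
    intro s t hs ht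
    obtain ⟨y, h1, h2⟩ := exists_ip169 hcr s t
    have := h y (by rw [h1]; exact hs) (by rw [h2]; exact ht)
    rw [hw, ip_add_right169, ip_smul_right169, ip_smul_right169, h1, h2] at this
    exact this
  refine ⟨α, β, ?_, ?_, hw⟩
  · by_contra hα
    push Not at hα
    have h1 := key ((|β| + 1) / (-α)) 1 (by
      have := abs_nonneg β
      exact div_pos (by linarith) (by linarith)) one_pos
    have h0 : α ≠ 0 := hα.ne
    have h2 : α * ((|β| + 1) / (-α)) = -(|β| + 1) := by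
      field_simp
    rw [h2] at h1
    linarith [le_abs_self β]
  · by_contra hβ
    push Not at hβ
    have h1 := key 1 ((|α| + 1) / (-β)) one_pos (by
      have := abs_nonneg α
      exact div_pos (by linarith) (by linarith))
    have h0 : β ≠ 0 := hβ.ne
    have h2 : β * ((|α| + 1) / (-β)) = -(|α| + 1) := by
      field_simp
    rw [h2] at h1
    linarith [le_abs_self α]

theorem Rods.sub_left715 {V : ℕ → ℂ} {ρ : ℕ → ℝ} (R : Rods V ρ) (i : ℕ) :
    V i - V (i + 1) = (-1) ^ (i + 1) * cis (ρ i) := by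
  rw [R.edge i, pow_succ]; ring

theorem Rods.sub_right715 {V : ℕ → ℂ} {ρ : ℕ → ℝ} (R : Rods V ρ) (i : ℕ) :
    V (i + 2) - V (i + 1) = (-1) ^ (i + 1) * cis (ρ (i + 1)) := by
  rw [R.edge (i + 1)]; ring

/-- a combination of the two end directions of an arc -/
theorem Rods.cone_pt715 {V : ℕ → ℂ} {ρ : ℕ → ℝ} (R : Rods V ρ) {i : ℕ} {w : ℂ} {α β : ℝ}
    (hα : 0 ≤ α) (hβ : 0 ≤ β) (hw : w = α * (V i - V (i + 1)) + β * (V (i + 2) - V (i + 1)))
    (hn : ‖w‖ = 1) : ∃ θ ∈ uIcc (ρ i) (ρ (i + 1)), w = (-1) ^ (i + 1) * cis θ := by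
  rw [R.sub_left715, R.sub_right715] at hw
  have e : w = (-1) ^ (i + 1) * ((α : ℂ) * cis (ρ i) + β * cis (ρ (i + 1))) := by
    rw [hw]; ring
  rw [e, norm_npow169] at hn
  obtain ⟨θ, hθ, hc⟩ := cone_inv715 (R.le i) hα hβ hn
  exact ⟨θ, hθ, by rw [e, hc]⟩

theorem ip_neg_right715 (a b : ℂ) : ip a (-b) = -ip a b := by
  unfold ip; simp only [Complex.neg_re, Complex.neg_im]; ring

/-- the branch of the circle about `2 z - v` at `z` is outside `S(v)` -/
theorem branch_far715 {z v : ℂ} (hv : dist v z = 1) {τ : ℝ} (hτ : τ = 1 ∨ τ = -1) :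
    ∀ᶠ t : ℝ in 𝓝[>] 0, 1 < dist (2 * z - v + (v - z) * cis (τ * t)) v := by
  have hr : ∀ᶠ r : ℝ in 𝓝[>] 0, 0 < r ∧ r < 1 := by
    filter_upwards [self_mem_nhdsWithin,
      mem_nhdsWithin_of_mem_nhds (Iio_mem_nhds (show (0 : ℝ) < 1 by norm_num))]
      with r h1 h2
    exact ⟨h1, h2⟩
  filter_upwards [hr] with t ht
  have hVn : ‖v - z‖ = 1 := by rw [← dist_eq_norm]; exact hv
  have e1 : 2 * z - v + (v - z) * cis (τ * t) - v = (v - z) * (cis (τ * t) - 2) := by ring
  rw [dist_eq_norm, e1, norm_mul, hVn, one_mul]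
  have hcos : Real.cos (τ * t) < 1 := by
    have hc : Real.cos (τ * t) = Real.cos t := by
      rcases hτ with rfl | rfl
      · rw [one_mul]
      · rw [neg_one_mul, Real.cos_neg]
    rw [hc, ← Real.cos_zero]
    exact Real.cos_lt_cos_of_nonneg_of_le_pi le_rfl (by linarith [Real.pi_gt_three]) ht.1
  have h6 : ‖cis (τ * t) - 2‖ ^ 2 = 5 - 4 * Real.cos (τ * t) := by
    rw [norm_sq169]
    simp only [Complex.sub_re, Complex.sub_im, cis_re, cis_im, Complex.re_ofNat, Complex.im_ofNat]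
    linear_combination Real.sin_sq_add_cos_sq (τ * t)
  have h7 := norm_nonneg (cis (τ * t) - 2)
  nlinarith

/-- the colour outside both of two circles through `z` is absent at the antipode `2 z - v` -/
theorem Irr.anti_out715 (h : Irr U T) {z v g : ℂ} {x : Fin k} (hv : dist v z = 1)
    (hg : dist g z = 1) (hcr : cr (v - z) (g - z) ≠ 0)
    (hsec : ∀ᶠ w in 𝓝 z, 1 < dist w v → 1 < dist w g → w ∈ U x) (hx : x ∈ T (2 * z - v)) :
    False := by
  obtain ⟨τ, hτ, hs⟩ : ∃ τ : ℝ, (τ = 1 ∨ τ = -1) ∧ τ * cr (v - z) (g - z) < 0 := by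
    rcases lt_or_gt_of_ne hcr with h1 | h1
    · exact ⟨1, Or.inl rfl, by linarith⟩
    · exact ⟨-1, Or.inr rfl, by linarith⟩
  obtain ⟨t, h1, h2, h3⟩ := ((branch_out hg hs).and ((branch_far715 hv hτ).and
    ((tendsto_branch z v τ).eventually hsec))).exists
  refine h.mx.notMem' (h3 h2 h1) ?_ (h.sub _ hx)
  rw [dist_eq_norm, add_sub_cancel_left, norm_mul, norm_cis, mul_one, ← dist_eq_norm]
  exact hv

theorem cr_swap715 {a b : ℂ} (h : cr a b ≠ 0) : cr b a ≠ 0 := by
  intro h1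
  apply h
  unfold cr at h1 ⊢
  linarith

namespace JCh

variable {V : ℕ → ℂ} {ρ : ℕ → ℝ} {S : Set (Fin k)} {C : ℕ → Set (Fin k)} {I O : ℕ → Fin k}

/-- a limit of points with palette inside `S \ {x}` is on the closed arc if `x` is not a colour of
the arc -/
theorem avd_arc715 (h : Irr U T) (J : JCh T V ρ S C) {i : ℕ} {x : Fin k} {p : ℂ} (hxS : x ∈ S)
    (hxC : x ∉ C (i + 1))
    (hp : p ∈ closure {q | dist q (V (i + 1)) = 1 ∧ T q ⊆ T (V (i + 1)) ∧ x ∉ T q}) :
    ∃ θ ∈ uIcc (ρ i) (ρ (i + 1)), p = arcPt V i θ := by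
  obtain ⟨a, b, c, d, hC, hD⟩ := J.dpt (i + 1)
  have hcl : IsClosed (arcPt V i '' uIcc (ρ i) (ρ (i + 1))) :=
    (isCompact_uIcc.image (continuous_arcPt V i)).isClosed
  have h1 : {q | dist q (V (i + 1)) = 1 ∧ T q ⊆ T (V (i + 1)) ∧ x ∉ T q} ⊆
      arcPt V i '' uIcc (ρ i) (ρ (i + 1)) := by
    rintro q ⟨q1, q2, q3⟩
    have h2 := h.pair_near715 hD q1 q2 (by rw [J.pal]; exact hxS) q3 (by rw [← hC]; exact hxC)
    refine closure_minimal ?_ hcl h2
    rintro q' ⟨q1', q2'⟩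
    obtain ⟨θ, hθ, rfl⟩ := J.only i q' q1' (by rw [hC]; exact q2')
    exact ⟨θ, ⟨hθ.1.le, hθ.2.le⟩, rfl⟩
  obtain ⟨θ, hθ, e⟩ := closure_minimal h1 hcl hp
  exact ⟨θ, hθ, e.symm⟩

/-- the palettes on the closed arc -/
theorem T_sub715 (J : JCh T V ρ S C) {i : ℕ} {θ : ℝ} (hθ : θ ∈ uIcc (ρ i) (ρ (i + 1))) :
    T (arcPt V i θ) ⊆ S := by
  by_cases h1 : θ ∈ uIoo (ρ i) (ρ (i + 1))
  · rw [J.arc i θ h1]
    exact J.C_sub (i + 1)
  · have h2 : θ = ρ i ∨ θ = ρ (i + 1) := by
      by_contra hcon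
      rw [not_or] at hcon
      apply h1
      unfold uIoo
      rw [mem_uIcc] at hθ
      rcases hθ with h3 | h3
      · have h4 := h3.1.trans h3.2
        rw [inf_eq_left.2 h4, sup_eq_right.2 h4]
        exact ⟨lt_of_le_of_ne h3.1 (Ne.symm hcon.1), lt_of_le_of_ne h3.2 hcon.2⟩
      · have h4 := h3.1.trans h3.2
        rw [inf_eq_right.2 h4, sup_eq_left.2 h4]
        exact ⟨lt_of_le_of_ne h3.1 (Ne.symm hcon.2), lt_of_le_of_ne h3.2 hcon.1⟩
    rcases h2 with rfl | rfl
    · rw [J.rods.arc_left, J.pal]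
    · rw [J.rods.arc_right, J.pal]

/-- the inner colour of the arc from the inside at a point of the circle: the closed arc -/
theorem circle_in715 (h : Irr U T) (J : JCh T V ρ S C) (hS : JSd U V ρ C I O) {i : ℕ} {u : ℂ}
    (hu : dist u (V (i + 1)) = 1) (hI : InnO T (V (i + 1)) u (I i)) :
    ∃ θ ∈ uIcc (ρ i) (ρ (i + 1)), u = arcPt V i θ := by
  have h0 : ∀ y, 0 < ip y (V i - V (i + 1)) → 0 < ip y (V (i + 2) - V (i + 1)) →
      0 ≤ ip y (u - V (i + 1)) := by
    intro y h1 h2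
    by_contra h3
    push Not at h3
    have hray : Ray (U (I i)) (V (i + 1)) y := by
      filter_upwards [(tendsto_ray169 (V (i + 1)) y).eventually (J.sectors h hS i),
        ray_in169 (by rw [dist_comm]; exact J.rods.unit i) h1,
        ray_in169 (J.rods.unit (i + 1)) h2] with t h4 h5 h6
      exact h4.1 h5 h6
    obtain ⟨w, ⟨w1, w2⟩, w3⟩ := ((mem_closure_iff_frequently.1 hI).and_eventually
      (h.mx.near hray hu h3)).exists
    exact w3 w1 (h.sub _ w2)
  obtain ⟨α, β, hα, hβ, hw⟩ := dual_cone715 (J.cr_ne i) h0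
  obtain ⟨θ, hθ, hc⟩ := J.rods.cone_pt715 hα hβ hw (by rw [← dist_eq_norm]; exact hu)
  refine ⟨θ, hθ, ?_⟩
  rw [arcPt, ← hc]; ring

/-- the outer colour of the arc from the inside at a point of the circle: antipodal to the closed
arc -/
theorem circle_out715 (h : Irr U T) (J : JCh T V ρ S C) (hS : JSd U V ρ C I O) {i : ℕ} {u : ℂ}
    (hu : dist u (V (i + 1)) = 1) (hI : InnO T (V (i + 1)) u (O i)) :
    ∃ θ ∈ uIcc (ρ i) (ρ (i + 1)), u - V (i + 1) = -((-1) ^ (i + 1) * cis θ) := by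
  have h0 : ∀ y, 0 < ip y (V i - V (i + 1)) → 0 < ip y (V (i + 2) - V (i + 1)) →
      0 ≤ ip y (-(u - V (i + 1))) := by
    intro y h1 h2
    by_contra h3
    push Not at h3
    rw [ip_neg_right715] at h3
    have hray : Ray (U (O i)) (V (i + 1)) (-y) := by
      filter_upwards [(tendsto_ray169 (V (i + 1)) (-y)).eventually (J.sectors h hS i),
        ray_out169 (z := V i) (y := -y) (by rw [dist_comm]; exact J.rods.unit i)
          (by rw [ip_neg]; linarith),
        ray_out169 (z := V (i + 2)) (y := -y) (J.rods.unit (i + 1)) (by rw [ip_neg]; linarith)]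
        with t h4 h5 h6
      exact h4.2 h5 h6
    obtain ⟨w, ⟨w1, w2⟩, w3⟩ := ((mem_closure_iff_frequently.1 hI).and_eventually
      (h.mx.near hray hu (by rw [ip_neg]; linarith))).exists
    exact w3 w1 (h.sub _ w2)
  obtain ⟨α, β, hα, hβ, hw⟩ := dual_cone715 (J.cr_ne i) h0
  obtain ⟨θ, hθ, hc⟩ := J.rods.cone_pt715 hα hβ hw (by rw [norm_neg, ← dist_eq_norm]; exact hu)
  refine ⟨θ, hθ, ?_⟩
  rw [← hc]; ring

/-- the outside sector at `V (i+1)` in the form of `anti_out715` -/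
theorem sec_out715 (h : Irr U T) (J : JCh T V ρ S C) (hS : JSd U V ρ C I O) (i : ℕ) :
    (∀ᶠ w in 𝓝 (V (i + 1)), 1 < dist w (V i) → 1 < dist w (V (i + 2)) → w ∈ U (O i)) ∧
    ∀ᶠ w in 𝓝 (V (i + 1)), 1 < dist w (V (i + 2)) → 1 < dist w (V i) → w ∈ U (O i) :=
  ⟨(J.sectors h hS i).mono fun _ hw => hw.2, (J.sectors h hS i).mono fun _ hw h1 h2 => hw.2 h2 h1⟩

/-- the centre: `x` is a colour of the arc -/
theorem centre715 {V : ℕ → ℂ} {ρ : ℕ → ℝ} (R : Rods V ρ) {i : ℕ} {u : ℂ}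
    (hu : dist u (V (i + 1)) ≤ 1)
    (hB : ∀ p, dist p u = 1 → dist p (V (i + 1)) = 1 →
      ∃ θ ∈ uIcc (ρ i) (ρ (i + 1)), p = arcPt V i θ) : False := by
  obtain ⟨p, p', h1, h2, h3, h4, h5⟩ := exists_common715 (u := u) (c := V (i + 1)) (by linarith)
  obtain ⟨θ, hθ, rfl⟩ := hB p h1 h2
  obtain ⟨θ', hθ', rfl⟩ := hB p' h3 h4
  have e : u - V (i + 1) = (-1) ^ (i + 1) * (cis θ + cis θ') := by
    unfold arcPt at h5
    linear_combination -h5
  have h6 : |θ - θ'| ≤ Real.pi / 3 := by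
    refine le_trans ?_ (R.le i)
    have := Set.abs_sub_le_of_uIcc_subset_uIcc (Set.uIcc_subset_uIcc hθ' hθ)
    exact this
  have h7 := two_dir715 h6
  rw [dist_eq_norm, e, norm_npow169] at hu
  linarith

theorem same_side715 {a b θ θ' r : ℝ} (hr : r = a ∨ r = b) (hθ : θ ∈ uIcc a b)
    (hθ' : θ' ∈ uIcc a b) : 0 ≤ (θ - r) * (θ' - r) := by
  rw [mem_uIcc] at hθ hθ'
  rcases hr with rfl | rfl <;> rcases hθ with h1 | h1 <;> rcases hθ' with h2 | h2 <;>
    nlinarith [h1.1, h1.2, h2.1, h2.2, mul_nonneg (sub_nonneg.2 h1.1) (sub_nonneg.2 h2.1),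
      mul_nonneg (sub_nonneg.2 h1.2) (sub_nonneg.2 h2.2),
      mul_nonneg (sub_nonneg.2 h1.1) (sub_nonneg.2 h2.2),
      mul_nonneg (sub_nonneg.2 h1.2) (sub_nonneg.2 h2.1)]

/-- a neighbour: the point is not in the open disc about the end of the arc -/
theorem neigh715 {V : ℕ → ℂ} {ρ : ℕ → ℝ} (R : Rods V ρ) {i : ℕ} {u : ℂ} {r : ℝ}
    (hr : r = ρ i ∨ r = ρ (i + 1)) (hu : dist u (arcPt V i r) < 1)
    (hB : ∀ p, dist p u = 1 → dist p (V (i + 1)) = 1 →
      ∃ θ ∈ uIcc (ρ i) (ρ (i + 1)), p = arcPt V i θ) : False := by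
  have hd : dist u (V (i + 1)) ≤ 2 := by
    have := dist_triangle u (arcPt V i r) (V (i + 1))
    rw [Rods.dist_arc] at this
    linarith
  obtain ⟨p, p', h1, h2, h3, h4, h5⟩ := exists_common715 hd
  obtain ⟨θ, hθ, rfl⟩ := hB p h1 h2
  obtain ⟨θ', hθ', rfl⟩ := hB p' h3 h4
  have e : u - arcPt V i r = (-1) ^ (i + 1) * (cis θ + cis θ' - cis r) := by
    unfold arcPt at h5 ⊢
    linear_combination -h5
  have hrm : r ∈ uIcc (ρ i) (ρ (i + 1)) := by
    rcases hr with rfl | rfl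
    · exact left_mem_uIcc
    · exact right_mem_uIcc
  have h6 : ∀ {θ : ℝ}, θ ∈ uIcc (ρ i) (ρ (i + 1)) → |θ - r| ≤ Real.pi / 3 := by
    intro θ hθ
    refine le_trans ?_ (R.le i)
    exact Set.abs_sub_le_of_uIcc_subset_uIcc (Set.uIcc_subset_uIcc hrm hθ)
  have h7 := rot3_ge169 (h6 hθ) (h6 hθ') (same_side715 hr hθ hθ')
  rw [dist_eq_norm, e, norm_npow169] at hu
  linarith

/-- the circle, `x` the outer colour: not in the arc before a junction with the same orientation -/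
theorem out_left715 (h : Irr U T) (J : JCh T V ρ S C) (hS : JSd U V ρ C I O) {i : ℕ} {u : ℂ}
    (hu : dist u (V (i + 2)) = 1) (hx : O (i + 1) ∈ T u)
    (hI : InnO T (V (i + 2)) u (O (i + 1)))
    (hs : 0 < (ρ (i + 1) - ρ i) * (ρ (i + 2) - ρ (i + 1)))
    (hB : ∀ p, dist p u = 1 → dist p (V (i + 1)) = 1 →
      ∃ θ ∈ uIcc (ρ i) (ρ (i + 1)), p = arcPt V i θ) : False := by
  obtain ⟨θ', hθ', h1⟩ := J.circle_out715 h hS (i := i + 1) hu hI
  have h2 : dist (u + V (i + 1) - V (i + 2)) u = 1 := by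
    rw [dist_eq_norm, show u + V (i + 1) - V (i + 2) - u = V (i + 1) - V (i + 2) by ring,
      ← dist_eq_norm]
    exact J.rods.unit (i + 1)
  have h3 : dist (u + V (i + 1) - V (i + 2)) (V (i + 1)) = 1 := by
    rw [dist_eq_norm, show u + V (i + 1) - V (i + 2) - V (i + 1) = u - V (i + 2) by ring,
      ← dist_eq_norm]
    exact hu
  obtain ⟨θ, hθ, h4⟩ := hB _ h2 h3
  have h5 : cis θ = cis θ' := by
    have e1 : ((-1 : ℂ) ^ (i + 1)) * cis θ = (-1) ^ (i + 1) * cis θ' := by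
      rw [arcPt] at h4
      have e2 : ((-1 : ℂ)) ^ (i + 1 + 1) = -(-1) ^ (i + 1) := by rw [pow_succ]; ring
      rw [e2, show i + 1 + 1 = i + 2 by ring] at h1
      linear_combination -h4 + h1
    exact mul_left_cancel₀ (pow_ne_zero _ (by norm_num)) e1
  obtain ⟨-, h6⟩ := junction_pt715 (J.rods.le i) (J.rods.le (i + 1)) hs hθ hθ' h5
  have h7 : u = 2 * V (i + 2) - V (i + 1) := by
    have e3 := J.rods.sub_left715 (i + 1)
    rw [h6] at h1
    rw [show i + 1 + 1 = i + 2 by ring] at h1 e3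
    linear_combination h1 + e3
  rw [h7] at hx
  exact h.anti_out715 (J.rods.unit (i + 1)) (by rw [dist_comm]; exact J.rods.unit (i + 2))
    (J.cr_ne (i + 1)) (J.sec_out715 h hS (i + 1)).1 hx

/-- the circle, `x` the outer colour: not in the arc after a junction with the same orientation -/
theorem out_right715 (h : Irr U T) (J : JCh T V ρ S C) (hS : JSd U V ρ C I O) {i : ℕ} {u : ℂ}
    (hu : dist u (V (i + 1)) = 1) (hx : O i ∈ T u)
    (hI : InnO T (V (i + 1)) u (O i))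
    (hs : 0 < (ρ (i + 1) - ρ i) * (ρ (i + 2) - ρ (i + 1)))
    (hB : ∀ p, dist p u = 1 → dist p (V (i + 2)) = 1 →
      ∃ θ ∈ uIcc (ρ (i + 1)) (ρ (i + 2)), p = arcPt V (i + 1) θ) : False := by
  obtain ⟨θ', hθ', h1⟩ := J.circle_out715 h hS (i := i) hu hI
  have h2 : dist (u + V (i + 2) - V (i + 1)) u = 1 := by
    rw [dist_eq_norm, show u + V (i + 2) - V (i + 1) - u = V (i + 2) - V (i + 1) by ring,
      ← dist_eq_norm, dist_comm]
    exact J.rods.unit (i + 1)
  have h3 : dist (u + V (i + 2) - V (i + 1)) (V (i + 2)) = 1 := by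
    rw [dist_eq_norm, show u + V (i + 2) - V (i + 1) - V (i + 2) = u - V (i + 1) by ring,
      ← dist_eq_norm]
    exact hu
  obtain ⟨θ, hθ, h4⟩ := hB _ h2 h3
  have h5 : cis θ' = cis θ := by
    have e1 : ((-1 : ℂ) ^ (i + 1)) * cis θ' = (-1) ^ (i + 1) * cis θ := by
      rw [arcPt] at h4
      have e2 : ((-1 : ℂ)) ^ (i + 1 + 1) = -(-1) ^ (i + 1) := by rw [pow_succ]; ring
      rw [e2, show i + 1 + 1 = i + 2 by ring] at h4
      linear_combination h1 - h4
    exact mul_left_cancel₀ (pow_ne_zero _ (by norm_num)) e1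
  obtain ⟨h6, -⟩ := junction_pt715 (J.rods.le i) (J.rods.le (i + 1)) hs hθ' hθ h5
  have h7 : u = 2 * V (i + 1) - V (i + 2) := by
    have e3 := J.rods.sub_right715 i
    rw [h6] at h1
    linear_combination h1 + e3
  rw [h7] at hx
  exact h.anti_out715 (by rw [dist_comm]; exact J.rods.unit (i + 1)) (J.rods.unit i)
    (cr_swap715 (J.cr_ne i)) (J.sec_out715 h hS i).2 hx

/-- **the third colour is common to three arcs**, geometric form -/
theorem common_arc715 (h : Irr U T) (J : JCh T V ρ S C) (hS : JSd U V ρ C I O) {i : ℕ} {u : ℂ}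
    {e x : Fin k} (he : e ∉ S) (heu : e ∈ T u) (hu : dist u (V (i + 2)) ≤ 1) (hxu : x ∈ T u)
    (hI : InnO T (V (i + 2)) u x)
    (hB0 : x ∉ C (i + 1) → ∀ p, dist p u = 1 → dist p (V (i + 1)) = 1 →
      ∃ θ ∈ uIcc (ρ i) (ρ (i + 1)), p = arcPt V i θ)
    (hB1 : x ∉ C (i + 2) → ∀ p, dist p u = 1 → dist p (V (i + 2)) = 1 →
      ∃ θ ∈ uIcc (ρ (i + 1)) (ρ (i + 2)), p = arcPt V (i + 1) θ)
    (hB2 : x ∉ C (i + 3) → ∀ p, dist p u = 1 → dist p (V (i + 3)) = 1 →
      ∃ θ ∈ uIcc (ρ (i + 2)) (ρ (i + 3)), p = arcPt V (i + 2) θ) :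
    x ∈ C (i + 1) ∧ x ∈ C (i + 2) ∧ x ∈ C (i + 3) ∧
      (0 < (ρ (i + 1) - ρ i) * (ρ (i + 2) - ρ (i + 1)) → dist u (V (i + 2)) < 1) ∧
      (0 < (ρ (i + 2) - ρ (i + 1)) * (ρ (i + 3) - ρ (i + 2)) → dist u (V (i + 2)) < 1) := by
  have hc1 : x ∈ C (i + 2) := by
    by_contra h1
    exact centre715 J.rods (i := i + 1) hu (hB1 h1)
  rcases hu.lt_or_eq with hlt | heq
  · refine ⟨?_, hc1, ?_, fun _ => hlt, fun _ => hlt⟩
    · by_contra h1
      refine neigh715 J.rods (i := i) (r := ρ (i + 1)) (Or.inr rfl) ?_ (hB0 h1)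
      rw [J.rods.arc_right]; exact hlt
    · by_contra h1
      refine neigh715 J.rods (i := i + 2) (r := ρ (i + 2)) (Or.inl rfl) ?_ (hB2 h1)
      rw [J.rods.arc_left]; exact hlt
  · -- on the circle: the outer colour
    have hxO : x = O (i + 1) := by
      have h1 := hS.pair (i + 1)
      rw [show i + 1 + 1 = i + 2 by ring] at h1
      rw [h1] at hc1
      rcases hc1 with h2 | h2
      · exfalso
        subst h2
        obtain ⟨θ, hθ, h3⟩ := J.circle_in715 h hS (i := i + 1) heq hI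
        rw [h3] at heu
        exact he (J.T_sub715 hθ heu)
      · exact h2
    subst hxO
    have hne0 : ρ (i + 1) - ρ i ≠ 0 := sub_ne_zero.2 (J.rods.ne i)
    have hne1 : ρ (i + 2) - ρ (i + 1) ≠ 0 := sub_ne_zero.2 (J.rods.ne (i + 1))
    have hne2 : ρ (i + 3) - ρ (i + 2) ≠ 0 := sub_ne_zero.2 (J.rods.ne (i + 2))
    -- same orientation: not a colour of the neighbour
    have hst : 0 < (ρ (i + 1) - ρ i) * (ρ (i + 2) - ρ (i + 1)) → O (i + 1) ∉ C (i + 1) := by
      intro hs h1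
      obtain ⟨h2, h3⟩ := J.junction_stay h hS hs
      rw [hS.pair i] at h1
      rcases h1 with h1 | h1
      · exact hS.ne (i + 1) (h2.trans h1.symm)
      · exact h3 h1
    have hst' : 0 < (ρ (i + 2) - ρ (i + 1)) * (ρ (i + 3) - ρ (i + 2)) →
        O (i + 1) ∉ C (i + 3) := by
      intro hs h1
      obtain ⟨h2, h3⟩ := J.junction_stay h hS (i := i + 1) hs
      have h4 := hS.pair (i + 2)
      rw [show i + 2 + 1 = i + 3 by ring] at h4
      rw [h4] at h1
      rcases h1 with h1 | h1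
      · exact hS.ne (i + 1) (h2.symm.trans h1.symm)
      · exact h3 (Eq.symm h1)
    have hno : ¬ 0 < (ρ (i + 1) - ρ i) * (ρ (i + 2) - ρ (i + 1)) := fun hs =>
      J.out_left715 h hS heq hxu hI hs (hB0 (hst hs))
    have hno' : ¬ 0 < (ρ (i + 2) - ρ (i + 1)) * (ρ (i + 3) - ρ (i + 2)) := fun hs =>
      J.out_right715 h hS (i := i + 1) heq hxu hI hs (hB2 (hst' hs))
    refine ⟨?_, hc1, ?_, fun hs => absurd hs hno, fun hs => absurd hs hno'⟩
    · have h1 : (ρ (i + 1) - ρ i) * (ρ (i + 2) - ρ (i + 1)) < 0 :=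
        lt_of_le_of_ne (not_lt.1 hno) (mul_ne_zero hne0 hne1)
      rw [hS.pair i, (J.junction_switch h hS h1).1]
      simp
    · have h1 : (ρ (i + 2) - ρ (i + 1)) * (ρ (i + 3) - ρ (i + 2)) < 0 :=
        lt_of_le_of_ne (not_lt.1 hno') (mul_ne_zero hne1 hne2)
      have h2 := (J.junction_switch h hS (i := i + 1) h1).1
      have h4 := hS.pair (i + 2)
      rw [show i + 2 + 1 = i + 3 by ring] at h4
      rw [h4, ← h2]
      simp

theorem exists_JSd715 (h : Irr U T) (J : JCh T V ρ S C) : ∃ I O, JSd U V ρ C I O := by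
  obtain ⟨I, O, hIO⟩ := J.sides h
  exact ⟨I, O, ⟨fun i => (hIO i).1, fun i => (hIO i).2.1, fun i => (hIO i).2.2⟩⟩

/-- **the third colour is common to three arcs**, weak hypotheses: only for the arcs without `x`, and
not at the ends of the arcs -/
theorem common' (h : Irr U T) (J : JCh T V ρ S C) {i : ℕ} {u : ℂ} {e x : Fin k} (he : e ∉ S)
    (heu : e ∈ T u) (hu : dist u (V (i + 2)) ≤ 1) (hxS : x ∈ S) (hxu : x ∈ T u)
    (hI : InnO T (V (i + 2)) u x)
    (hA : ∀ j, j = i ∨ j = i + 1 ∨ j = i + 2 → x ∉ C (j + 1) → ∀ p, dist p u = 1 →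
      dist p (V (j + 1)) = 1 → p ≠ V j → p ≠ V (j + 2) →
      p ∈ closure {q | dist q (V (j + 1)) = 1 ∧ T q ⊆ T (V (j + 1)) ∧ x ∉ T q}) :
    x ∈ C (i + 1) ∧ x ∈ C (i + 2) ∧ x ∈ C (i + 3) ∧
      (0 < (ρ (i + 1) - ρ i) * (ρ (i + 2) - ρ (i + 1)) → dist u (V (i + 2)) < 1) ∧
      (0 < (ρ (i + 2) - ρ (i + 1)) * (ρ (i + 3) - ρ (i + 2)) → dist u (V (i + 2)) < 1) := by
  obtain ⟨I, O, hS⟩ := J.exists_JSd715 h
  have key : ∀ j, j = i ∨ j = i + 1 ∨ j = i + 2 → x ∉ C (j + 1) → ∀ p, dist p u = 1 →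
      dist p (V (j + 1)) = 1 → ∃ θ ∈ uIcc (ρ j) (ρ (j + 1)), p = arcPt V j θ := by
    intro j hj hx p h1 h2
    by_cases h3 : p = V j
    · exact ⟨ρ j, left_mem_uIcc, by rw [J.rods.arc_left, h3]⟩
    by_cases h4 : p = V (j + 2)
    · exact ⟨ρ (j + 1), right_mem_uIcc, by rw [J.rods.arc_right, h4]⟩
    exact J.avd_arc715 h hxS hx (hA j hj hx p h1 h2 h3 h4)
  exact J.common_arc715 h hS he heu hu hxu hI (key i (Or.inl rfl)) (key (i + 1) (Or.inr (Or.inl rfl)))
    (key (i + 2) (Or.inr (Or.inr rfl)))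

/-- **row (E)** -/
theorem common (h : Irr U T) (J : JCh T V ρ S C) {i : ℕ} {u : ℂ} {e x : Fin k} (he : e ∉ S)
    (heu : e ∈ T u) (hu : dist u (V (i + 2)) ≤ 1) (hxS : x ∈ S) (hxu : x ∈ T u)
    (hI : InnO T (V (i + 2)) u x) (hA0 : Avd T (V (i + 1)) u x) (hA1 : Avd T (V (i + 2)) u x)
    (hA2 : Avd T (V (i + 3)) u x) :
    x ∈ C (i + 1) ∧ x ∈ C (i + 2) ∧ x ∈ C (i + 3) ∧
      (0 < (ρ (i + 1) - ρ i) * (ρ (i + 2) - ρ (i + 1)) → dist u (V (i + 2)) < 1) ∧
      (0 < (ρ (i + 2) - ρ (i + 1)) * (ρ (i + 3) - ρ (i + 2)) → dist u (V (i + 2)) < 1) := by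
  refine J.common' h he heu hu hxS hxu hI ?_
  rintro j (rfl | rfl | rfl) _ p h1 h2 _ _
  · exact hA0 p h1 h2
  · exact hA1 p h1 h2
  · exact hA2 p h1 h2

end JCh

end Vale.Agent.P032.Six
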