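import Vale.Agent.P032.S5.H80.Anti

/-!
# P032: collars of exact arcs of two-pair points, components

`collar` : near an inner point of an exact `ab`-arc of `S(z)` the inside is in `U a` and the outside in
`U b` (`a` inside, `b` outside: `Sd U z p a b`, which is `Irr.sides` for a two-pair point `z`).
`sd_const` : the orientation is constant on connected sets of points of `S(z)` with `a ∈ T p`.
`inner_collar`, `outer_collar` : one connected open subset of `U a` (of `U b`) contains the inner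
(outer) collars of all points of a connected set of arc points.
`dist_le_one` (F1): a connected subset of `U i` has diameter at most one, also its closure.
`disc_or_out` (F2): if `i ∈ Pal U z` a connected subset of `U i` is in the open unit disc about `z` or
outside the closed one.
`comp_*` : the component of a point of `U i`.
-/

open Set Filter Topology Metric

noncomputable section

namespace Vale.Agent.P032.H715

open Vale.Agent.P032.Six

variable {k : ℕ} {U : Fin k → Set ℂ} {T : ℂ → Set (Fin k)}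

/-! ### Components -/

/-- (F1), open form -/
theorem dist_lt_one (h : Mx U) {i : Fin k} {R : Set ℂ} (hR : IsPreconnected R) (hRU : R ⊆ U i)
    {x y : ℂ} (hx : x ∈ R) (hy : y ∈ R) : dist x y < 1 := by
  by_contra hcon
  push Not at hcon
  have hc : ContinuousOn (fun q : ℂ => dist q y) R :=
    (continuous_id.dist continuous_const).continuousOn
  obtain ⟨q, hq, hq1⟩ := hR.intermediate_value hy hx hc
    (show (1 : ℝ) ∈ Icc (dist y y) (dist x y) from ⟨by rw [dist_self]; norm_num, hcon⟩)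
  exact h.free i q (hRU hq) y (subset_closure (hRU hy)) hq1

/-- **(F1)** -/
theorem dist_le_one (h : Mx U) {i : Fin k} {R : Set ℂ} (hR : IsPreconnected R) (hRU : R ⊆ U i)
    {x y : ℂ} (hx : x ∈ closure R) (hy : y ∈ closure R) : dist x y ≤ 1 := by
  have h1 : ∀ x ∈ R, ∀ y ∈ closure R, dist x y ≤ 1 := fun x hx y hy =>
    closure_minimal (s := R) (t := {y | dist x y ≤ 1})
      (fun y hy => (dist_lt_one h hR hRU hx hy).le)
      (isClosed_le (continuous_const.dist continuous_id) continuous_const) hy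
  exact closure_minimal (s := R) (t := {x | dist x y ≤ 1}) (fun x hx => h1 x hx y hy)
    (isClosed_le (continuous_id.dist continuous_const) continuous_const) hx

/-- **(F2)** -/
theorem disc_or_out (h : Mx U) {i : Fin k} {R : Set ℂ} (hR : IsPreconnected R) (hRU : R ⊆ U i)
    {z : ℂ} (hz : i ∈ Pal U z) : (∀ x ∈ R, dist x z < 1) ∨ ∀ x ∈ R, 1 < dist x z := by
  by_contra hcon
  push Not at hcon
  obtain ⟨⟨x, hx, hx1⟩, ⟨y, hy, hy1⟩⟩ := hcon
  have hc : ContinuousOn (fun q : ℂ => dist q z) R :=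
    (continuous_id.dist continuous_const).continuousOn
  obtain ⟨q, hq, hq1⟩ := hR.intermediate_value hy hx hc ⟨hy1, hx1⟩
  exact h.free i q (hRU hq) z hz hq1

/-- **(F2)**, with a point of `closure R` in the open disc -/
theorem in_disc (h : Mx U) {i : Fin k} {R : Set ℂ} (hR : IsPreconnected R) (hRU : R ⊆ U i)
    {z : ℂ} (hz : i ∈ Pal U z) {v : ℂ} (hv : v ∈ closure R) (hvz : dist v z < 1) :
    ∀ x ∈ R, dist x z < 1 := by
  rcases disc_or_out h hR hRU hz with h1 | h1
  · exact h1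
  · exfalso
    have : (1 : ℝ) ≤ dist v z := closure_minimal (s := R) (t := {x | 1 ≤ dist x z})
      (fun x hx => (h1 x hx).le)
      (isClosed_le continuous_const (continuous_id.dist continuous_const)) hv
    linarith

/-- **(F2)**, with a point of `closure R` outside the closed disc -/
theorem out_disc (h : Mx U) {i : Fin k} {R : Set ℂ} (hR : IsPreconnected R) (hRU : R ⊆ U i)
    {z : ℂ} (hz : i ∈ Pal U z) {v : ℂ} (hv : v ∈ closure R) (hvz : 1 < dist v z) :
    ∀ x ∈ R, 1 < dist x z := by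
  rcases disc_or_out h hR hRU hz with h1 | h1
  · exfalso
    have : dist v z ≤ 1 := closure_minimal (s := R) (t := {x | dist x z ≤ 1})
      (fun x hx => (h1 x hx).le)
      (isClosed_le (continuous_id.dist continuous_const) continuous_const) hv
    linarith
  · exact h1

/-- if `z` itself is in the closure of `R`, then `R` is in the open disc about `z` -/
theorem in_disc_self (h : Mx U) {i : Fin k} {R : Set ℂ} (hR : IsPreconnected R) (hRU : R ⊆ U i)
    {z : ℂ} (hz : z ∈ closure R) : ∀ x ∈ R, dist x z < 1 :=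
  in_disc h hR hRU (closure_mono hRU hz) hz (by rw [dist_self]; exact one_pos)

/-! ### Collars -/

/-- **Collar** at an inner point of an exact arc. -/
theorem collar (h : Irr U T) {z p : ℂ} {a b : Fin k} (hp : T p ⊆ {a, b}) (hs : Sd U z p a b) :
    ∀ᶠ x in 𝓝 p, (dist x z < 1 → T x = {a}) ∧ (1 < dist x z → T x = {b}) := by
  filter_upwards [h.nhd p, hs] with x h1 h2
  obtain ⟨i, hi⟩ := h.ne x
  refine ⟨fun h3 => ?_, fun h3 => ?_⟩
  · have hsub : T x ⊆ {a} := fun m hm => by
      rcases hp (h1 hm) with h4 | h4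
      · exact h4
      · rw [mem_singleton_iff] at h4
        subst h4
        exact absurd (h.sub x hm) (h2.2 h3)
    exact Subset.antisymm hsub (by rintro m rfl; exact (hsub hi : i = m) ▸ hi)
  · have hsub : T x ⊆ {b} := fun m hm => by
      rcases hp (h1 hm) with h4 | h4
      · subst h4
        exact absurd (h.sub x hm) (h2.1 h3)
      · exact h4
    exact Subset.antisymm hsub (by rintro m rfl; exact (hsub hi : i = m) ▸ hi)

/-- the collar of a two-pair point -/
theorem collar_DPt (h : Irr U T) {z p : ℂ} {a b c d : Fin k} (hz : DPt T z a b c d)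
    (hp : Arc T z p {a, b}) :
    (∀ᶠ x in 𝓝 p, (dist x z < 1 → T x = {a}) ∧ (1 < dist x z → T x = {b})) ∨
    (∀ᶠ x in 𝓝 p, (dist x z < 1 → T x = {b}) ∧ (1 < dist x z → T x = {a})) := by
  rcases h.sides hz hp.1 with h1 | h1
  · exact Or.inl (collar h hp.mem.subset h1)
  · exact Or.inr (collar h (by rw [hp.mem, pair_comm]) h1)

/-- the orientation is constant on a connected set of points with `a ∈ T` or `b ∈ T` -/
theorem sd_const (h : Irr U T) {z : ℂ} {a b c d : Fin k} (hz : DPt T z a b c d) {Q : Set ℂ}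
    (hQ : IsPreconnected Q) (hQ1 : ∀ q ∈ Q, dist q z = 1) (hQT : ∀ q ∈ Q, a ∈ T q ∨ b ∈ T q) :
    (∀ q ∈ Q, Sd U z q a b) ∨ ∀ q ∈ Q, Sd U z q b a := by
  have hop : ∀ i j : Fin k, IsOpen {q | Sd U z q i j} := by
    intro i j
    rw [isOpen_iff_mem_nhds]
    intro q hq
    exact eventually_eventually_nhds.2 (show Sd U z q i j from hq)
  by_contra hcon
  push Not at hcon
  obtain ⟨⟨x, hx, hx1⟩, ⟨y, hy, hy1⟩⟩ := hcon
  obtain ⟨q, hq, hq1, hq2⟩ := hQ _ _ (hop a b) (hop b a)
    (fun q hq => h.sides hz (hQ1 q hq))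
    ⟨y, hy, (h.sides hz (hQ1 y hy)).resolve_right hy1⟩
    ⟨x, hx, (h.sides hz (hQ1 x hx)).resolve_left hx1⟩
  rcases hQT q hq with h3 | h3
  · exact h.sd_unique h3 hq1 hq2
  · exact h.sd_unique h3 hq2 hq1

/-! ### Connected collars -/

/-- polar coordinates near a point of the unit circle about `z` -/
theorem exists_polar (z : ℂ) (θ : ℝ) {η : ℝ} (hη : 0 < η) :
    ∀ᶠ x in 𝓝 (z + cis θ), ∃ r : ℝ, |r - θ| < η ∧ x = z + (dist x z : ℂ) * cis r := by
  have hconj : ∀ a : ℝ, cis a * (starRingEnd ℂ) (cis a) = 1 := fun a => by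
    rw [Complex.mul_conj, Complex.normSq_eq_norm_sq, norm_cis]; norm_num
  have hadd : ∀ a b : ℝ, cis (a + b) = cis a * cis b := fun a b => by
    unfold cis; rw [← Complex.exp_add]; congr 1; push_cast; ring
  have hcont : ContinuousAt (fun w : ℂ => Complex.arg ((w - z) * (starRingEnd ℂ) (cis θ)))
      (z + cis θ) := by
    have h1 : ContinuousAt (fun w : ℂ => (w - z) * (starRingEnd ℂ) (cis θ)) (z + cis θ) := by
      fun_prop
    refine ContinuousAt.comp (g := Complex.arg) ?_ h1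
    apply Complex.continuousAt_arg
    rw [add_sub_cancel_left, hconj]
    left
    norm_num
  have h0 : Complex.arg ((z + cis θ - z) * (starRingEnd ℂ) (cis θ)) = 0 := by
    rw [add_sub_cancel_left, hconj, Complex.arg_one]
  have hev := Metric.tendsto_nhds.1 hcont η hη
  filter_upwards [hev] with w hw
  rw [h0, Real.dist_eq, sub_zero] at hw
  refine ⟨θ + Complex.arg ((w - z) * (starRingEnd ℂ) (cis θ)), by simpa using hw, ?_⟩
  have h1 := Complex.norm_mul_exp_arg_mul_I ((w - z) * (starRingEnd ℂ) (cis θ))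
  have h2 : ‖(w - z) * (starRingEnd ℂ) (cis θ)‖ = ‖w - z‖ := by
    rw [norm_mul, RCLike.norm_conj, norm_cis, mul_one]
  rw [h2] at h1
  have h3 : (‖w - z‖ : ℂ) * cis (θ + Complex.arg ((w - z) * (starRingEnd ℂ) (cis θ)))
      = w - z := by
    rw [hadd]
    calc (‖w - z‖ : ℂ) * (cis θ * cis (Complex.arg ((w - z) * (starRingEnd ℂ) (cis θ))))
        = cis θ * ((‖w - z‖ : ℂ) *
            Complex.exp (Complex.arg ((w - z) * (starRingEnd ℂ) (cis θ)) * Complex.I)) := by
          unfold cis; ring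
      _ = cis θ * ((w - z) * (starRingEnd ℂ) (cis θ)) := by rw [h1]
      _ = (w - z) * (cis θ * (starRingEnd ℂ) (cis θ)) := by ring
      _ = w - z := by rw [hconj, mul_one]
  rw [dist_eq_norm, h3]
  ring

/-- a union of connected sets along a connected set of indices -/
theorem union_chain {Q : Set ℂ} (hQ : IsPreconnected Q) (W : ℂ → Set ℂ)
    (hW : ∀ q ∈ Q, IsPreconnected (W q))
    (hov : ∀ q ∈ Q, ∀ᶠ q' in 𝓝[Q] q, (W q ∩ W q').Nonempty) :
    IsPreconnected (⋃ q ∈ Q, W q) := by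
  refine IsPreconnected.biUnion_of_reflTransGen hW fun x hx y hy => ?_
  have key : Relation.ReflTransGen (fun i j => (W i ∩ W j).Nonempty ∧ i ∈ Q ∧ j ∈ Q) x y := by
    refine hQ.induction₂ (Relation.ReflTransGen fun i j => (W i ∩ W j).Nonempty ∧ i ∈ Q ∧ j ∈ Q)
      (fun x hx => ?_) ?_ ?_ hx hy
    · filter_upwards [hov x hx, self_mem_nhdsWithin] with y h1 h2
      exact Relation.ReflTransGen.single ⟨h1, hx, h2⟩
    · intro x y z _ _ _ h1 h2
      exact h1.trans h2
    · intro x y _ _ h1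
      have hsym : Std.Symm fun i j : ℂ => (W i ∩ W j).Nonempty ∧ i ∈ Q ∧ j ∈ Q :=
        ⟨fun i j hij => ⟨by rw [inter_comm]; exact hij.1, hij.2.2, hij.2.1⟩⟩
      exact (Relation.ReflTransGen.stdSymm (r := fun i j : ℂ => (W i ∩ W j).Nonempty ∧ i ∈ Q ∧
        j ∈ Q)).symm _ _ h1
  exact Relation.ReflTransGen.lift id (fun i j hij => ⟨hij.1, hij.2.1⟩) _ _ key

theorem dist_polar (z : ℂ) {ρ : ℝ} (hρ : 0 ≤ ρ) (t : ℝ) : dist (z + (ρ : ℂ) * cis t) z = ρ := by
  rw [dist_eq_norm, add_sub_cancel_left, norm_mul, norm_cis, mul_one, Complex.norm_real,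
    Real.norm_of_nonneg hρ]

/-- **Connected one-sided collar** of a connected set of points of a unit circle. -/
theorem side_collar {z : ℂ} {G Q : Set ℂ} {S : Set ℝ} (hQ : IsPreconnected Q)
    (hQ1 : ∀ q ∈ Q, dist q z = 1) (hS : S = Iio 1 ∨ S = Ioi 1)
    (hG : ∀ q ∈ Q, ∀ᶠ x in 𝓝 q, dist x z ∈ S → x ∈ G) :
    ∃ R ⊆ G, IsPreconnected R ∧ ∀ q ∈ Q, ∀ᶠ x in 𝓝 q, dist x z ∈ S → x ∈ R := by
  classical
  have hcis : ∀ q : ℂ, ∃ θ : ℝ, dist q z = 1 → q = z + cis θ := by
    intro q
    by_cases hq : dist q z = 1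
    · obtain ⟨θ, hθ⟩ := exists_cis (u := q - z) (by rw [← dist_eq_norm]; exact hq)
      exact ⟨θ, fun _ => by rw [← hθ]; ring⟩
    · exact ⟨0, fun h => absurd h hq⟩
  choose θ hθ using hcis
  have hc : Continuous fun x : ℝ × ℝ => z + (x.1 : ℂ) * cis x.2 :=
    continuous_const.add ((Complex.continuous_ofReal.comp continuous_fst).mul
      (continuous_cis.comp continuous_snd))
  have hδ : ∀ q : ℂ, ∃ δ : ℝ, 0 < δ ∧ δ < 1 ∧ (q ∈ Q → ∀ ρ t : ℝ, |ρ - 1| < δ → |t - θ q| < δ →
      ρ ∈ S → z + (ρ : ℂ) * cis t ∈ G) := by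
    intro q
    by_cases hq : q ∈ Q
    · have h1 : Tendsto (fun x : ℝ × ℝ => z + (x.1 : ℂ) * cis x.2) (𝓝 (1, θ q)) (𝓝 q) := by
        have := hc.tendsto (1, θ q)
        simpa [← hθ q (hQ1 q hq)] using this
      obtain ⟨ε, hε, hball⟩ := Metric.eventually_nhds_iff.1 (h1.eventually (hG q hq))
      refine ⟨min ε (1 / 2), by positivity, (min_le_right _ _).trans_lt (by norm_num),
        fun _ ρ t hρ ht hρS => hball (y := (ρ, t)) ?_ ?_⟩
      · rw [Prod.dist_eq]
        exact max_lt (by rw [Real.dist_eq]; exact hρ.trans_le (min_le_left _ _))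
          (by rw [Real.dist_eq]; exact ht.trans_le (min_le_left _ _))
      · have hρ0 : 0 ≤ ρ := by
          have := (abs_lt.1 (hρ.trans_le (min_le_right _ _))).1
          linarith
        rw [dist_polar z hρ0]
        exact hρS
    · exact ⟨1 / 2, by norm_num, by norm_num, fun h => absurd h hq⟩
  choose δ hδ0 hδ1 hδG using hδ
  set W : ℂ → Set ℂ := fun q => (fun x : ℝ × ℝ => z + (x.1 : ℂ) * cis x.2) ''
    ((S ∩ Ioo (1 - δ q) (1 + δ q)) ×ˢ Ioo (θ q - δ q) (θ q + δ q)) with hW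
  have hSc : S.OrdConnected := by
    rcases hS with rfl | rfl
    · exact ordConnected_Iio
    · exact ordConnected_Ioi
  have hWc : ∀ q ∈ Q, IsPreconnected (W q) := by
    intro q _
    refine IsPreconnected.image ?_ _ hc.continuousOn
    exact ((hSc.inter ordConnected_Ioo).isPreconnected).prod isPreconnected_Ioo
  -- a radius near one in `S`
  have hρ : ∀ e : ℝ, 0 < e → ∃ ρ ∈ S, |ρ - 1| < e := by
    intro e he
    rcases hS with rfl | rfl
    · exact ⟨1 - e / 2, by show 1 - e / 2 < 1; linarith, by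
        rw [abs_lt]; constructor <;> linarith⟩
    · exact ⟨1 + e / 2, by show 1 < 1 + e / 2; linarith, by
        rw [abs_lt]; constructor <;> linarith⟩
  have hmem : ∀ q : ℂ, ∀ ρ t : ℝ, ρ ∈ S → |ρ - 1| < δ q → |t - θ q| < δ q →
      z + (ρ : ℂ) * cis t ∈ W q := by
    intro q ρ t h1 h2 h3
    rw [abs_lt] at h2 h3
    exact ⟨(ρ, t), ⟨⟨h1, by linarith [h2.1], by linarith [h2.2]⟩, by linarith [h3.1],
      by linarith [h3.2]⟩, rfl⟩
  have hgerm : ∀ q ∈ Q, ∀ᶠ x in 𝓝 q, dist x z ∈ S → x ∈ W q := by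
    intro q hq
    have h1 := exists_polar z (θ q) (hδ0 q)
    rw [← hθ q (hQ1 q hq)] at h1
    have h2 : ∀ᶠ x in 𝓝 q, |dist x z - 1| < δ q := by
      have h3 : Tendsto (fun x : ℂ => |dist x z - 1|) (𝓝 q) (𝓝 |dist q z - 1|) :=
        ((continuous_id.dist continuous_const).sub continuous_const).abs.tendsto q
      rw [hQ1 q hq, sub_self, abs_zero] at h3
      exact h3.eventually (Iio_mem_nhds (hδ0 q))
    filter_upwards [h1, h2] with x ⟨t, ht, hx⟩ h3 h4
    rw [hx]
    exact hmem q _ t h4 h3 ht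
  refine ⟨⋃ q ∈ Q, W q, ?_, union_chain hQ W hWc ?_, ?_⟩
  · intro x hx
    simp only [mem_iUnion] at hx
    obtain ⟨q, hq, ⟨ρ, t⟩, ⟨⟨h1, h2⟩, h3⟩, rfl⟩ := hx
    exact hδG q hq ρ t (by rw [abs_lt]; constructor <;> linarith [h2.1, h2.2])
      (by rw [abs_lt]; constructor <;> linarith [h3.1, h3.2]) h1
  · intro q hq
    -- near `q` there is an inner point of the germ of `q'` in `W q`
    have h1 := eventually_eventually_nhds.2 (hgerm q hq)
    filter_upwards [mem_nhdsWithin_of_mem_nhds h1, self_mem_nhdsWithin] with q' h2 h3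
    have h4 := hgerm q' h3
    obtain ⟨e, he, hball⟩ := Metric.eventually_nhds_iff.1 (h2.and h4)
    obtain ⟨ρ, hρS, hρe⟩ := hρ (min e (1 / 2)) (by positivity)
    have hρ0 : 0 ≤ ρ := by
      have := (abs_lt.1 (hρe.trans_le (min_le_right _ _))).1
      linarith
    have hd : dist (z + (ρ : ℂ) * cis (θ q')) q' < e := by
      rw [hθ q' (hQ1 q' h3)]
      have e1 : z + (ρ : ℂ) * cis (θ q') - (z + cis (θ q')) = ((ρ - 1 : ℝ) : ℂ) * cis (θ q') := by
        push_cast; ring
      have e2 : θ (z + cis (θ q')) = θ q' := by rw [← hθ q' (hQ1 q' h3)]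
      rw [e2, dist_eq_norm, e1, norm_mul, norm_cis, mul_one, Complex.norm_real, Real.norm_eq_abs]
      exact hρe.trans_le (min_le_left _ _)
    have h5 := hball hd
    have h6 : dist (z + (ρ : ℂ) * cis (θ q')) z ∈ S := by rw [dist_polar z hρ0]; exact hρS
    exact ⟨_, h5.1 h6, h5.2 h6⟩
  · intro q hq
    filter_upwards [hgerm q hq] with x hx h1
    exact mem_iUnion₂.2 ⟨q, hq, hx h1⟩

/-- **Inner collar** of a connected set of arc points, `a` inside. -/
theorem inner_collar (h : Irr U T) {z : ℂ} {a b : Fin k} {Q : Set ℂ} (hQ : IsPreconnected Q)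
    (hQ1 : ∀ q ∈ Q, dist q z = 1) (hQT : ∀ q ∈ Q, T q ⊆ {a, b}) (hs : ∀ q ∈ Q, Sd U z q a b) :
    ∃ R ⊆ U a, IsPreconnected R ∧ ∀ q ∈ Q, ∀ᶠ x in 𝓝 q, dist x z < 1 → x ∈ R :=
  side_collar (S := Iio 1) hQ hQ1 (Or.inl rfl) fun q hq =>
    (collar h (hQT q hq) (hs q hq)).mono fun _ hx h1 => h.mem_of_single (hx.1 h1).subset

/-- **Outer collar** of a connected set of arc points, `b` outside. -/
theorem outer_collar (h : Irr U T) {z : ℂ} {a b : Fin k} {Q : Set ℂ} (hQ : IsPreconnected Q)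
    (hQ1 : ∀ q ∈ Q, dist q z = 1) (hQT : ∀ q ∈ Q, T q ⊆ {a, b}) (hs : ∀ q ∈ Q, Sd U z q a b) :
    ∃ R ⊆ U b, IsPreconnected R ∧ ∀ q ∈ Q, ∀ᶠ x in 𝓝 q, 1 < dist x z → x ∈ R :=
  side_collar (S := Ioi 1) hQ hQ1 (Or.inr rfl) fun q hq =>
    (collar h (hQT q hq) (hs q hq)).mono fun _ hx h1 => h.mem_of_single (hx.2 h1).subset

end Vale.Agent.P032.H715
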