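import Vale.Agent.P032.H715.Common

/-!
# P032: H1 for points with at most three colours

`Irr.h1_three715` : `u` has the colours `e, f ∉ T z` and `x ∈ T z` and no others, `|T p| ≤ 3`, `p` on
`S(u)` and `S(z)`, not the midpoint: `p` is a limit of points of `S(z)` with palette in `T z \ {x}`.
-/

open Set Filter Topology Metric

noncomputable section

namespace Vale.Agent.P032.Six

variable {k : ℕ} {U : Fin k → Set ℂ} {T : ℂ → Set (Fin k)}

/-- **(H1)** for at most three colours -/
theorem Irr.h1_three715 (h : Irr U T) {z u p : ℂ} {e f x : Fin k}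
    (hcov : ∀ i, i = e ∨ i = f ∨ i ∈ T z) (he : e ∈ T u) (hf : f ∈ T u) (hx : x ∈ T u)
    (hez : e ∉ T z) (hfz : f ∉ T z) (hxz : x ∈ T z) (hef : e ≠ f) (hu3 : (T u).ncard ≤ 3)
    (hp3 : (T p).ncard ≤ 3) (hpu : dist p u = 1) (hpz : dist p z = 1) (hmid : u + z ≠ 2 * p) :
    p ∈ closure {q | dist q z = 1 ∧ T q ⊆ T z ∧ x ∉ T q} := by
  have hxe : x ≠ e := by rintro rfl; exact hez hxz
  have hxf : x ≠ f := by rintro rfl; exact hfz hxz
  have huz : u ≠ z := by rintro rfl; exact hez he
  have hTu : T u = {e, f, x} := by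
    symm
    refine Set.eq_of_subset_of_ncard_le ?_ ?_ (Set.toFinite _)
    · rintro i (rfl | rfl | hi)
      · exact he
      · exact hf
      · rw [mem_singleton_iff] at hi; subst hi; exact hx
    · rw [Set.ncard_insert_of_notMem (by simp [hef, hxe.symm]), Set.ncard_pair hxf.symm]
      exact hu3
  have hz : ∀ i, i ∉ T u → i ∈ T z ∧ i ≠ x := by
    intro i hi
    rw [hTu] at hi
    simp only [mem_insert_iff, mem_singleton_iff, not_or] at hi
    rcases hcov i with h1 | h1 | h1
    · exact absurd h1 hi.1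
    · exact absurd h1 hi.2.1
    · exact ⟨h1, hi.2.2⟩
  -- two colours outside `T u`
  obtain ⟨t, htp, htu⟩ := h.not_sub' hpu hu3
  obtain ⟨t', htp', htu', htt⟩ : ∃ t', t' ∈ T p ∧ t' ∉ T u ∧ t' ≠ t := by
    by_contra hcon
    push Not at hcon
    have h1 : T p ⊆ insert t (T u) := by
      intro i hi
      by_cases h2 : i ∈ T u
      · exact Or.inr h2
      · exact Or.inl (hcon i hi h2)
    rcases h.lemmaX hpu hu3 h1 hpz (h.sub z (hz t htu).1) with h2 | h2
    · exact huz h2.symm
    · exact hmid (by rw [add_comm]; exact h2)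
  by_cases hs : ∃ s, s ∈ T p ∧ s ∈ T u
  · obtain ⟨s, hsp, hsu⟩ := hs
    have hst : s ≠ t := by rintro rfl; exact htu hsu
    have hst' : s ≠ t' := by rintro rfl; exact htu' hsu
    have hTp : T p = {t, t', s} := by
      symm
      refine Set.eq_of_subset_of_ncard_le ?_ ?_ (Set.toFinite _)
      · rintro i (rfl | rfl | hi)
        · exact htp
        · exact htp'
        · rw [mem_singleton_iff] at hi; subst hi; exact hsp
      · rw [Set.ncard_insert_of_notMem (by simp [htt.symm, hst.symm]),
          Set.ncard_pair hst'.symm]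
        exact hp3
    have h1 : ¬ ∀ᶠ q in 𝓝[sphere z 1] p, s ∈ Pal U q := by
      intro h2
      rcases h.mx.partner_line hpz h2 hpu (h.sub u hsu) with h3 | h3
      · exact huz h3
      · exact hmid h3
    rw [Filter.not_eventually] at h1
    have h2 : ∃ᶠ q in 𝓝[sphere z 1] p, q ∈ {q | dist q z = 1 ∧ T q ⊆ T z ∧ x ∉ T q} := by
      have e1 : ∀ᶠ q in 𝓝[sphere z 1] p, T q ⊆ T p := mem_nhdsWithin_of_mem_nhds (h.nhd p)
      have e2 : ∀ᶠ q in 𝓝[sphere z 1] p, q ∈ sphere z 1 := self_mem_nhdsWithin
      refine (h1.and_eventually (e1.and e2)).mono ?_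
      rintro q ⟨h3, h4, h5⟩
      have h6 : ∀ i ∈ T q, i ∉ T u := by
        intro i hi
        have h7 := h4 hi
        rw [hTp] at h7
        rcases h7 with rfl | rfl | h7
        · exact htu
        · exact htu'
        · rw [mem_singleton_iff] at h7
          subst h7
          exact absurd (h.sub q hi) h3
      exact ⟨h5, fun i hi => (hz i (h6 i hi)).1, fun hi => h6 x hi hx⟩
    exact mem_closure_iff_frequently.2 (h2.filter_mono nhdsWithin_le_nhds)
  · push Not at hs
    exact subset_closure ⟨hpz, fun i hi => (hz i (hs i hi)).1, fun hi => hs x hi hx⟩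

end Vale.Agent.P032.Six
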