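import Vale.Agent.P032.H715.Sides

/-!
# P032: sectors and junctions of a J-chain

`JCh.sect715` : the four sectors at the vertex `V (i+1)` of a J-chain: the colour inside both
circles `S(V i)`, `S(V (i+2))` is the inner colour `I i` of the arc number `i` (centre `V (i+1)`), the
colour outside both circles is its outer colour `O i`.
`JCh.sectors715` : the same for the open sets.
`JCh.junction_stay715`, `JCh.junction_switch715` : the colours of two consecutive arcs.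
-/

open Set Filter Topology Metric

noncomputable section

namespace Vale.Agent.P032.Six

open Vale.Agent.P032.H715

variable {k : ℕ} {U : Fin k → Set ℂ} {T : ℂ → Set (Fin k)} {V : ℕ → ℂ} {ρ : ℕ → ℝ}
  {S : Set (Fin k)} {C : ℕ → Set (Fin k)}

theorem tendsto_ray715 (z u : ℂ) : Tendsto (fun r : ℝ => z + r * u) (𝓝[>] 0) (𝓝 z) := by
  have : Continuous fun r : ℝ => z + r * u := by fun_prop
  have h2 := this.tendsto 0
  simp only [Complex.ofReal_zero, zero_mul, add_zero] at h2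
  exact h2.mono_left nhdsWithin_le_nhds

/-- an exact `IO`-arc of `S(z)` with `I` inside, between `z1` and `z2`: the colour of the sector
inside both circles is `I`, the colour of the sector outside both circles is `O` -/
theorem _root_.Vale.Agent.P032.H715.Sect.of_arc (h : Irr U T) {z z1 z2 g : ℂ} {oo ii oi io a b : Fin k}
    (R : Sect T z z1 z2 oo ii oi io) (hab : a ≠ b) (ha : a ∈ T z) (hb : b ∈ T z)
    (hg : Arc T z g {a, b}) (hs : Sd U z g a b) (hz1 : dist z z1 = 1) (hz2 : dist z z2 = 1)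
    (c1 : 0 < ip (g - z) (z1 - z)) (c2 : 0 < ip (g - z) (z2 - z))
    (c3 : cr (g - z) (z1 - z) * cr (g - z) (z2 - z) < 0) : ii = a ∧ oo = b := by
  have hgn : ‖g - z‖ = 1 := by rw [← dist_eq_norm]; exact hg.1
  have hzg : dist z g = 1 := by rw [dist_comm]; exact hg.1
  have neg : ∀ u v : ℂ, ip u (z - v) = -ip u (v - z) := by
    intro u v; unfold ip; simp; ring
  -- the ray towards `g`
  have k1 : ii ≠ b := by
    have e1 := (side_line (u := g - z) hz1).2 (by rw [neg]; linarith)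
    have e2 := (side_line (u := g - z) hz2).2 (by rw [neg]; linarith)
    have e3 := (side_line (u := g - z) hzg).2 (by
      rw [neg]
      have := ip_sq hgn
      unfold ip
      nlinarith)
    have e4 := (tendsto_ray715 z (g - z)).eventually (R.eii.and (h.sd_center hg hs))
    obtain ⟨r, h1, h2, h3, h4, h5⟩ := (e1.and (e2.and (e3.and e4))).exists
    rintro rfl
    have h6 := h4 h1 h2
    exact h5.2 h3 (h.sub _ (by rw [h6]; rfl))
  -- the orthogonal rays
  obtain ⟨t0, ht0⟩ := exists_cis hgn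
  have hgt : g = z + cis t0 := by rw [← ht0]; ring
  have hg' := hg
  rw [hgt] at hg'
  obtain ⟨η, hη, hJ⟩ := hg'.exists_eta
  have key : ∀ σ : ℝ, (σ = 1 ∨ σ = -1) → ∀ l : Fin k,
      (∀ᶠ r : ℝ in 𝓝[>] 0, T (z + r * (σ * (Complex.I * (g - z)))) = {l}) → l ≠ a ∧ l ≠ b := by
    intro σ hσ l hl
    have f1 := h.mx.ray_avoid hη (i := a) (fun t ht => h.sub _ (by rw [hJ t ht]; simp)) hσ
    have f2 := h.mx.ray_avoid hη (i := b) (fun t ht => h.sub _ (by rw [hJ t ht]; simp)) hσ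
    rw [← ht0] at f1 f2
    obtain ⟨r, h1, h2, h3⟩ := (hl.and (f1.and f2)).exists
    constructor
    · rintro rfl; exact h2 (h.sub _ (by rw [h1]; rfl))
    · rintro rfl; exact h3 (h.sub _ (by rw [h1]; rfl))
  have ipσ : ∀ (σ : ℝ) (v : ℂ), ip (σ * (Complex.I * (g - z))) (z - v) =
      -(σ * cr (g - z) (v - z)) := by
    intro σ v
    unfold ip cr
    simp
    ring
  have rays : ∀ σ : ℝ, σ * cr (g - z) (z1 - z) < 0 → 0 < σ * cr (g - z) (z2 - z) →
      ∀ᶠ r : ℝ in 𝓝[>] 0, T (z + r * (σ * (Complex.I * (g - z)))) = {oi} := by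
    intro σ s1 s2
    have e1 := (side_line (u := σ * (Complex.I * (g - z))) hz1).1 (by rw [ipσ]; linarith)
    have e2 := (side_line (u := σ * (Complex.I * (g - z))) hz2).2 (by rw [ipσ]; linarith)
    filter_upwards [e1, e2, (tendsto_ray715 z (σ * (Complex.I * (g - z)))).eventually R.eoi]
      with r h1 h2 h3
    exact h3 h1 h2
  have rays' : ∀ σ : ℝ, 0 < σ * cr (g - z) (z1 - z) → σ * cr (g - z) (z2 - z) < 0 →
      ∀ᶠ r : ℝ in 𝓝[>] 0, T (z + r * (σ * (Complex.I * (g - z)))) = {io} := by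
    intro σ s1 s2
    have e1 := (side_line (u := σ * (Complex.I * (g - z))) hz1).2 (by rw [ipσ]; linarith)
    have e2 := (side_line (u := σ * (Complex.I * (g - z))) hz2).1 (by rw [ipσ]; linarith)
    filter_upwards [e1, e2, (tendsto_ray715 z (σ * (Complex.I * (g - z)))).eventually R.eio]
      with r h1 h2 h3
    exact h3 h1 h2
  have k2 : (oi ≠ a ∧ oi ≠ b) ∧ io ≠ a ∧ io ≠ b := by
    rcases mul_neg_iff.1 c3 with ⟨s1, s2⟩ | ⟨s1, s2⟩
    · exact ⟨key (-1) (Or.inr rfl) oi (rays (-1) (by linarith) (by linarith)),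
        key 1 (Or.inl rfl) io (rays' 1 (by linarith) (by linarith))⟩
    · exact ⟨key 1 (Or.inl rfl) oi (rays 1 (by linarith) (by linarith)),
        key (-1) (Or.inr rfl) io (rays' (-1) (by linarith) (by linarith))⟩
  obtain ⟨⟨k3, k4⟩, k5, k6⟩ := k2
  rw [R.pal] at ha hb
  have hb' : b = oo := by
    rcases hb with h1 | h1 | h1 | h1
    · exact h1
    · exact absurd h1.symm k1
    · exact absurd h1.symm k4
    · exact absurd h1.symm k6
  have ha' : a = ii := by
    rcases ha with h1 | h1 | h1 | h1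
    · exact absurd (h1.trans hb'.symm) hab
    · exact h1
    · exact absurd h1.symm k3
    · exact absurd h1.symm k5
  exact ⟨ha'.symm, hb'.symm⟩

/-! ### The chain -/

theorem arc_near715 (V : ℕ → ℂ) (i : ℕ) (θ : ℝ) {η : ℝ} (hη : 0 < η) :
    ∀ᶠ q in 𝓝 (arcPt V i θ), dist q (V (i + 1)) = 1 → ∃ r : ℝ, |r - θ| < η ∧ q = arcPt V i r := by
  have h1 := exists_polar 0 θ hη
  have hc : Tendsto (fun q : ℂ => (-1 : ℂ) ^ (i + 1) * (q - V (i + 1))) (𝓝 (arcPt V i θ))
      (𝓝 (0 + cis θ)) := by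
    have h2 : Continuous fun q : ℂ => (-1 : ℂ) ^ (i + 1) * (q - V (i + 1)) := by fun_prop
    have h3 := h2.tendsto (arcPt V i θ)
    have e : (-1 : ℂ) ^ (i + 1) * (arcPt V i θ - V (i + 1)) = 0 + cis θ := by
      rw [arcPt, add_sub_cancel_left, ← mul_assoc, npow_sq169, one_mul, zero_add]
    rwa [e] at h3
  filter_upwards [hc.eventually h1] with q ⟨r, hr, hq⟩ hd
  refine ⟨r, hr, ?_⟩
  have e1 : dist ((-1 : ℂ) ^ (i + 1) * (q - V (i + 1))) 0 = 1 := by
    rw [dist_zero_right, norm_npow169, ← dist_eq_norm, hd]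
  rw [e1, Complex.ofReal_one, one_mul, zero_add] at hq
  rw [arcPt, ← hq, ← mul_assoc, npow_sq169]
  ring

theorem JCh.arcAt715 (J : JCh T V ρ S C) {i : ℕ} {θ : ℝ} (hθ : θ ∈ uIoo (ρ i) (ρ (i + 1))) :
    Arc T (V (i + 1)) (arcPt V i θ) (C (i + 1)) := by
  refine ⟨Rods.dist_arc V i θ, ?_⟩
  have hop : IsOpen (uIoo (ρ i) (ρ (i + 1))) := isOpen_Ioo
  obtain ⟨η, hη, hball⟩ := Metric.isOpen_iff.1 hop θ hθ
  filter_upwards [mem_nhdsWithin_of_mem_nhds (arc_near715 V i θ hη), self_mem_nhdsWithin] with q h1 h2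
  obtain ⟨r, hr, rfl⟩ := h1 h2
  exact J.arc i r (hball (by rw [mem_ball, Real.dist_eq]; exact hr))

theorem cis_cos715 {s t : ℝ} (h : cis s = cis t) : Real.cos (s - t) = 1 := by
  have h1 : Real.cos s = Real.cos t := by
    have := congrArg Complex.re h; rwa [cis_re, cis_re] at this
  have h2 : Real.sin s = Real.sin t := by
    have := congrArg Complex.im h; rwa [cis_im, cis_im] at this
  rw [Real.cos_sub, h1, h2]
  nlinarith [Real.sin_sq_add_cos_sq t]

theorem Rods.ne_two715 (h : Rods V ρ) (i : ℕ) : V i ≠ V (i + 2) := by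
  intro h0
  have h1 := h.two i
  rw [← h0] at h1
  have h2 : (-1 : ℂ) ^ i * (cis (ρ i) - cis (ρ (i + 1))) = 0 := by linear_combination -h1
  have h3 : cis (ρ i) - cis (ρ (i + 1)) = 0 := by
    rcases mul_eq_zero.1 h2 with h4 | h4
    · exact absurd h4 (pow_ne_zero _ (by norm_num))
    · exact h4
  have h5 := cis_cos715 (sub_eq_zero.1 h3)
  have h6 := h.le i
  have hpi := Real.pi_pos
  rw [abs_le] at h6
  have h7 := (Real.cos_eq_one_iff_of_lt_of_lt (x := ρ i - ρ (i + 1)) (by linarith)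
    (by linarith)).1 h5
  exact h.ne i (by linarith)

theorem Rods.off_mid715 (h : Rods V ρ) (i : ℕ) : V i + V (i + 2) ≠ 2 * V (i + 1) := by
  intro h0
  rw [h.edge (i + 1), h.edge i, pow_succ] at h0
  have h2 : (-1 : ℂ) ^ i * (cis (ρ i) + cis (ρ (i + 1))) = 0 := by linear_combination -h0
  have h3 : cis (ρ i) + cis (ρ (i + 1)) = 0 := by
    rcases mul_eq_zero.1 h2 with h4 | h4
    · exact absurd h4 (pow_ne_zero _ (by norm_num))
    · exact h4
  have h5 : cis (ρ i) = cis (ρ (i + 1) + Real.pi) := by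
    rw [cis_add_pi169]; linear_combination h3
  have h6 := cis_cos715 h5
  have h7 := h.le i
  have hpi := Real.pi_pos
  rw [abs_le] at h7
  have h8 := (Real.cos_eq_one_iff_of_lt_of_lt (x := ρ i - (ρ (i + 1) + Real.pi)) (by linarith)
    (by linarith)).1 h6
  linarith

/-- **The four sectors at a vertex of the chain.** -/
theorem JCh.sect715 (h : Irr U T) (J : JCh T V ρ S C) {i : ℕ} {I O : Fin k} (hIO : I ≠ O)
    (hC : C (i + 1) = {I, O})
    (hs : ∀ θ ∈ uIcc (ρ i) (ρ (i + 1)), Sd U (V (i + 1)) (arcPt V i θ) I O) :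
    ∃ oi io : Fin k, Sect T (V (i + 1)) (V i) (V (i + 2)) O I oi io := by
  obtain ⟨a, b, c, d, -, hD1⟩ := J.dpt i
  obtain ⟨a', b', c', d', -, hD2⟩ := J.dpt (i + 2)
  obtain ⟨oo, ii, oi, io, R⟩ := Vale.Agent.P032.H715.sect h hD1 hD2 (V := V (i + 1))
    (by rw [J.pal, J.pal]) (by rw [J.pal, J.pal]) (by rw [dist_comm]; exact J.rods.unit i)
    (J.rods.unit (i + 1)) (J.rods.ne_two715 i) (J.rods.off_mid715 i)
  set θ : ℝ := (ρ i + ρ (i + 1)) / 2 with hθd
  have hne := J.rods.ne i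
  have hθ : θ ∈ uIoo (ρ i) (ρ (i + 1)) := by
    rcases lt_or_gt_of_ne hne with h1 | h1
    · rw [uIoo_of_gt h1]; constructor <;> rw [hθd] <;> linarith
    · rw [uIoo_of_lt h1]; constructor <;> rw [hθd] <;> linarith
  have hA := J.arcAt715 hθ
  rw [hC] at hA
  obtain ⟨e1, e2, e3, e4, hCe, hDm⟩ := J.dpt (i + 1)
  have hpal := hDm.pal
  have hsub : ({I, O} : Set (Fin k)) ⊆ T (V (i + 1)) := by
    rw [← hC, hCe, hpal]
    rintro x (rfl | rfl)
    · simp
    · simp
  have hle := J.rods.le i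
  have hpi := Real.pi_pos
  rw [abs_le] at hle
  have v0 : arcPt V i θ - V (i + 1) = (-1) ^ (i + 1) * cis θ := by rw [arcPt]; ring
  have v1 : V i - V (i + 1) = (-1) ^ (i + 1) * cis (ρ i) := by
    rw [J.rods.edge i, pow_succ]; ring
  have v2 : V (i + 2) - V (i + 1) = (-1) ^ (i + 1) * cis (ρ (i + 1)) := by
    rw [J.rods.edge (i + 1)]; ring
  have hip : ∀ s t : ℝ, ip ((-1) ^ (i + 1) * cis s) ((-1) ^ (i + 1) * cis t) =
      Real.cos (s - t) := by
    intro s t
    rw [Real.cos_sub]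
    rcases neg_one_pow_eq_or ℂ (i + 1) with h1 | h1 <;> rw [h1] <;> unfold ip <;>
      simp [cis_re, cis_im]
  have hcr : ∀ s t : ℝ, cr ((-1) ^ (i + 1) * cis s) ((-1) ^ (i + 1) * cis t) =
      Real.sin (t - s) := by
    intro s t
    rw [Real.sin_sub]
    rcases neg_one_pow_eq_or ℂ (i + 1) with h1 | h1 <;> rw [h1] <;> unfold cr <;>
      simp [cis_re, cis_im] <;> ring
  obtain ⟨k1, k2⟩ := R.of_arc h hIO (hsub (Or.inl rfl)) (hsub (Or.inr rfl)) hA
    (hs θ ⟨hθ.1.le, hθ.2.le⟩) (by rw [dist_comm]; exact J.rods.unit i) (J.rods.unit (i + 1))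
    (by rw [v0, v1, hip]; exact Real.cos_pos_of_mem_Ioo ⟨by rw [hθd]; linarith, by
      rw [hθd]; linarith⟩)
    (by rw [v0, v2, hip]; exact Real.cos_pos_of_mem_Ioo ⟨by rw [hθd]; linarith, by
      rw [hθd]; linarith⟩)
    (by
      rw [v0, v1, v2, hcr, hcr]
      rcases lt_or_gt_of_ne hne with h1 | h1
      · exact mul_neg_of_pos_of_neg
          (Real.sin_pos_of_pos_of_lt_pi (by rw [hθd]; linarith) (by rw [hθd]; linarith))
          (Real.sin_neg_of_neg_of_neg_pi_lt (by rw [hθd]; linarith) (by rw [hθd]; linarith))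
      · exact mul_neg_of_neg_of_pos
          (Real.sin_neg_of_neg_of_neg_pi_lt (by rw [hθd]; linarith) (by rw [hθd]; linarith))
          (Real.sin_pos_of_pos_of_lt_pi (by rw [hθd]; linarith) (by rw [hθd]; linarith)))
  subst k1 k2
  exact ⟨oi, io, R⟩

/-- **row (B), sectors** -/
theorem JCh.sectors715 (h : Irr U T) (J : JCh T V ρ S C) {i : ℕ} {I O : Fin k} (hIO : I ≠ O)
    (hC : C (i + 1) = {I, O})
    (hs : ∀ θ ∈ uIcc (ρ i) (ρ (i + 1)), Sd U (V (i + 1)) (arcPt V i θ) I O) :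
    ∀ᶠ x in 𝓝 (V (i + 1)), (dist x (V i) < 1 → dist x (V (i + 2)) < 1 → x ∈ U I) ∧
      (1 < dist x (V i) → 1 < dist x (V (i + 2)) → x ∈ U O) := by
  obtain ⟨oi, io, R⟩ := J.sect715 h hIO hC hs
  filter_upwards [R.eii, R.eoo] with x h1 h2
  exact ⟨fun h3 h4 => h.mem_of_single (h1 h3 h4).subset,
    fun h3 h4 => h.mem_of_single (h2 h3 h4).subset⟩

/-- arc points near the end `V (i+2)` -/
theorem JCh.near_end715 (J : JCh T V ρ S C) (i : ℕ) {P : ℂ → Prop} (hP : ∀ᶠ x in 𝓝 (V (i + 2)), P x) :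
    ∃ θ ∈ uIoo (ρ i) (ρ (i + 1)), P (arcPt V i θ) := by
  have h1 : Tendsto (arcPt V i) (𝓝 (ρ (i + 1))) (𝓝 (V (i + 2))) := by
    have := (continuous_arcPt V i).tendsto (ρ (i + 1))
    rwa [J.rods.arc_right i] at this
  have h2 : ρ (i + 1) ∈ closure (uIoo (ρ i) (ρ (i + 1))) := by
    unfold uIoo
    rw [closure_Ioo (by
      rw [Ne, inf_eq_sup]
      exact (J.rods.ne i).symm)]
    exact right_mem_uIcc
  obtain ⟨θ, hθ, hθ'⟩ := ((mem_closure_iff_frequently.1 h2).and_eventually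
    (h1.eventually hP)).exists
  exact ⟨θ, hθ, hθ'⟩

/-- a point inside and a point outside -/
theorem in_out715 {z w : ℂ} (hwz : dist w z = 1) {P : ℂ → Prop} (hP : ∀ᶠ v in 𝓝 w, P v) :
    (∃ v, 1 < dist v z ∧ P v) ∧ ∃ v, dist v z < 1 ∧ P v := by
  have hn := ip_sq (n := w - z) (by rw [← dist_eq_norm]; exact hwz)
  have e1 := (side_line (u := w - z) hwz).1 (by unfold ip; nlinarith)
  have e2 := (side_line (u := -(w - z)) hwz).2 (by
    unfold ip
    simp only [Complex.neg_re, Complex.neg_im]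
    nlinarith)
  obtain ⟨r, h1, h2⟩ := (e1.and ((tendsto_ray715 w (w - z)).eventually hP)).exists
  obtain ⟨r', h1', h2'⟩ := (e2.and ((tendsto_ray715 w (-(w - z))).eventually hP)).exists
  exact ⟨⟨_, h1, h2⟩, _, h1', h2'⟩

/-- **junction, STAY** -/
theorem JCh.junction_stay715 (h : Irr U T) (J : JCh T V ρ S C) {i : ℕ} {I O I' O' : Fin k}
    (hC : C (i + 1) = {I, O})
    (hs : ∀ θ ∈ uIcc (ρ i) (ρ (i + 1)), Sd U (V (i + 1)) (arcPt V i θ) I O)
    (hIO' : I' ≠ O') (hC' : C (i + 2) = {I', O'})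
    (hs' : ∀ θ ∈ uIcc (ρ (i + 1)) (ρ (i + 2)), Sd U (V (i + 2)) (arcPt V (i + 1) θ) I' O')
    (hst : 0 < (ρ (i + 1) - ρ i) * (ρ (i + 2) - ρ (i + 1))) : I' = I ∧ O' ≠ O := by
  obtain ⟨oi, io, R⟩ := J.sect715 h (i := i + 1) hIO' hC' hs'
  have R1 : Sect T (V (i + 2)) (V (i + 1)) (V (i + 3)) O' I' oi io := R
  obtain ⟨θ, hθ, hq1, hq2⟩ := J.near_end715 i (R1.eii.eventually_nhds.and R1.eoi.eventually_nhds)
  have hcol := J.collar h hC hs hθ
  have hin : dist (arcPt V i θ) (V (i + 3)) < 1 := by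
    rw [J.rods.dist_prev]
    have hle := J.rods.le i
    have h3 : (θ - ρ (i + 1)) * (ρ (i + 1) - ρ (i + 2)) > 0 := by
      rcases mul_pos_iff.1 hst with ⟨s1, s2⟩ | ⟨s1, s2⟩
      · rw [uIoo_of_lt (by linarith)] at hθ
        exact mul_pos_of_neg_of_neg (by linarith [hθ.2]) (by linarith)
      · rw [uIoo_of_gt (by linarith)] at hθ
        exact mul_pos (by linarith [hθ.1]) (by linarith)
    refine rot3_lt169 ?_ (by rw [abs_sub_comm]; exact J.rods.le (i + 1)) h3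
    rw [abs_le] at hle ⊢
    rcases mul_pos_iff.1 hst with ⟨s1, s2⟩ | ⟨s1, s2⟩
    · rw [uIoo_of_lt (by linarith)] at hθ
      constructor <;> linarith [hθ.1, hθ.2]
    · rw [uIoo_of_gt (by linarith)] at hθ
      constructor <;> linarith [hθ.1, hθ.2]
  have hop : ∀ᶠ x in 𝓝 (arcPt V i θ), dist x (V (i + 3)) < 1 :=
    (isOpen_lt (continuous_id.dist continuous_const) continuous_const).mem_nhds hin
  obtain ⟨⟨x, hx1, hx2, hx3, hx4, hx5⟩, ⟨y, hy1, hy2, hy3, hy4, hy5⟩⟩ :=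
    in_out715 (Rods.dist_arc V i θ) (hcol.and (hop.and (hq1.and hq2)))
  have a1 := (hx2.2 hx1).1
  have a2 := hx5 hx1 hx3
  have b1 := (hy2.1 hy1).1
  have b2 := hy4 hy1 hy3
  rw [a1] at a2
  rw [b1] at b2
  have a3 : O = oi := singleton_eq_singleton_iff.1 a2
  have b3 : I = I' := singleton_eq_singleton_iff.1 b2
  refine ⟨b3.symm, fun h0 => ?_⟩
  have hnd := R1.nd
  simp only [List.nodup_cons, List.mem_cons, List.not_mem_nil, or_false, not_or,
    not_false_eq_true, List.nodup_nil, and_true] at hnd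
  exact hnd.1.2.1 (h0.trans a3)

/-- **junction, SWITCH** -/
theorem JCh.junction_switch715 (h : Irr U T) (J : JCh T V ρ S C) {i : ℕ} {I O I' O' : Fin k}
    (hC : C (i + 1) = {I, O})
    (hs : ∀ θ ∈ uIcc (ρ i) (ρ (i + 1)), Sd U (V (i + 1)) (arcPt V i θ) I O)
    (hIO' : I' ≠ O') (hC' : C (i + 2) = {I', O'})
    (hs' : ∀ θ ∈ uIcc (ρ (i + 1)) (ρ (i + 2)), Sd U (V (i + 2)) (arcPt V (i + 1) θ) I' O')
    (hst : (ρ (i + 1) - ρ i) * (ρ (i + 2) - ρ (i + 1)) < 0) : O' = O ∧ I' ≠ I := by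
  obtain ⟨oi, io, R⟩ := J.sect715 h (i := i + 1) hIO' hC' hs'
  have R1 : Sect T (V (i + 2)) (V (i + 1)) (V (i + 3)) O' I' oi io := R
  obtain ⟨θ, hθ, hq1, hq2⟩ := J.near_end715 i (R1.eoo.eventually_nhds.and R1.eio.eventually_nhds)
  have hcol := J.collar h hC hs hθ
  have hout : 1 < dist (arcPt V i θ) (V (i + 3)) := by
    rw [J.rods.dist_prev]
    have hle := J.rods.le i
    have h3 : (θ - ρ (i + 1)) * (ρ (i + 1) - ρ (i + 2)) < 0 := by
      rcases mul_neg_iff.1 hst with ⟨s1, s2⟩ | ⟨s1, s2⟩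
      · rw [uIoo_of_lt (by linarith)] at hθ
        exact mul_neg_of_neg_of_pos (by linarith [hθ.2]) (by linarith)
      · rw [uIoo_of_gt (by linarith)] at hθ
        exact mul_neg_of_pos_of_neg (by linarith [hθ.1]) (by linarith)
    refine rot3_gt169 ?_ (by rw [abs_sub_comm]; exact J.rods.le (i + 1)) h3
    rw [abs_le] at hle ⊢
    rcases mul_neg_iff.1 hst with ⟨s1, s2⟩ | ⟨s1, s2⟩
    · rw [uIoo_of_lt (by linarith)] at hθ
      constructor <;> linarith [hθ.1, hθ.2]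
    · rw [uIoo_of_gt (by linarith)] at hθ
      constructor <;> linarith [hθ.1, hθ.2]
  have hop : ∀ᶠ x in 𝓝 (arcPt V i θ), 1 < dist x (V (i + 3)) :=
    (isOpen_lt continuous_const (continuous_id.dist continuous_const)).mem_nhds hout
  obtain ⟨⟨x, hx1, hx2, hx3, hx4, hx5⟩, ⟨y, hy1, hy2, hy3, hy4, hy5⟩⟩ :=
    in_out715 (Rods.dist_arc V i θ) (hcol.and (hop.and (hq1.and hq2)))
  have a1 := (hx2.2 hx1).1
  have a2 := hx4 hx1 hx3
  have b1 := (hy2.1 hy1).1
  have b2 := hy5 hy1 hy3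
  rw [a1] at a2
  rw [b1] at b2
  have a3 : O = O' := singleton_eq_singleton_iff.1 a2
  have b3 : I = io := singleton_eq_singleton_iff.1 b2
  refine ⟨a3.symm, fun h0 => ?_⟩
  have hnd := R1.nd
  simp only [List.nodup_cons, List.mem_cons, List.not_mem_nil, or_false, not_or,
    not_false_eq_true, List.nodup_nil, and_true] at hnd
  exact hnd.2.1.2 (h0.trans b3)

end Vale.Agent.P032.Six
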