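import Vale.Agent.P032.H715.Collar

/-!
# P032: the four sectors at a common neighbour of two two-pair points

`V` is on the unit circles about the two-pair points `z1`, `z2` (not collinear with `V`), all three have
the same palette.  `Sect T V z1 z2 oo ii oi io` : near `V` each of the four sectors cut out by `S(z1)`
and `S(z2)` has exactly one colour: `oo` outside both, `ii` inside both, `oi` outside `S(z1)` and inside
`S(z2)`, `io` inside `S(z1)` and outside `S(z2)`.
`sect` : existence.  `Sect.edge..` : the four edges are exact.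
-/

open Set Filter Topology Metric

noncomputable section

namespace Vale.Agent.P032.H715

open Vale.Agent.P032.Six

variable {k : ℕ} {U : Fin k → Set ℂ} {T : ℂ → Set (Fin k)}

/-! ### the four sectors are not empty -/

/-- a point moving out of (into) the unit circle about `z` -/
theorem side_line {V z u : ℂ} (hV : dist V z = 1) :
    (0 < ip u (V - z) → ∀ᶠ r : ℝ in 𝓝[>] 0, 1 < dist (V + r * u) z) ∧
    (ip u (V - z) < 0 → ∀ᶠ r : ℝ in 𝓝[>] 0, dist (V + r * u) z < 1) := by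
  have e : ∀ r : ℝ, dist (V + r * u) z ^ 2 = 1 + 2 * r * ip u (V - z) + r ^ 2 * ip u u := by
    intro r
    rw [sq_line, hV]
    have : ip u (z - V) = -ip u (V - z) := by unfold ip; simp; ring
    rw [this]; ring
  have hnn : 0 ≤ ip u u := by unfold ip; nlinarith [mul_self_nonneg u.re, mul_self_nonneg u.im]
  constructor
  · intro h
    filter_upwards [self_mem_nhdsWithin] with r hr
    have hr : 0 < r := hr
    have h1 := e r
    have h2 : 0 < 2 * r * ip u (V - z) := by positivity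
    have h3 : 0 ≤ r ^ 2 * ip u u := by positivity
    nlinarith [dist_nonneg (x := V + r * u) (y := z)]
  · intro h
    have h0 : 0 < -ip u (V - z) / (ip u u + 1) := by
      apply div_pos <;> linarith
    filter_upwards [Ioo_mem_nhdsGT h0] with r hr
    have h1 := e r
    have h2 : r * (ip u u + 1) < -ip u (V - z) := by
      have := hr.2
      rwa [lt_div_iff₀ (by linarith)] at this
    have h3 : r * (2 * ip u (V - z) + r * ip u u) < 0 := by
      apply mul_neg_of_pos_of_neg hr.1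
      nlinarith [hr.1]
    nlinarith [dist_nonneg (x := V + r * u) (y := z)]

/-- a direction with prescribed products -/
theorem exists_dir {e1 e2 : ℂ} (h : cr e1 e2 ≠ 0) (s1 s2 : ℝ) :
    ∃ u : ℂ, ip u e1 = s1 ∧ ip u e2 = s2 := by
  refine ⟨⟨(s1 * e2.im - s2 * e1.im) / cr e1 e2, (-(s1 * e2.re) + s2 * e1.re) / cr e1 e2⟩, ?_, ?_⟩
  · unfold ip
    simp only
    rw [div_mul_eq_mul_div, div_mul_eq_mul_div, ← add_div, div_eq_iff h]
    unfold cr; ring
  · unfold ip
    simp only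
    rw [div_mul_eq_mul_div, div_mul_eq_mul_div, ← add_div, div_eq_iff h]
    unfold cr; ring

/-- a point in a sector -/
theorem sector_pt {V z1 z2 : ℂ} (h1 : dist V z1 = 1) (h2 : dist V z2 = 1) (hne : z1 ≠ z2)
    (hne2 : z1 + z2 ≠ 2 * V) (s1 s2 : ℝ) {P : ℂ → Prop} (hP : ∀ᶠ x in 𝓝 V, P x) :
    ∃ x, P x ∧ (0 < s1 → 1 < dist x z1) ∧ (s1 < 0 → dist x z1 < 1) ∧
      (0 < s2 → 1 < dist x z2) ∧ (s2 < 0 → dist x z2 < 1) := by
  have hcr : cr (V - z1) (V - z2) ≠ 0 := by
    intro h0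
    rcases cr_zero (by rw [← dist_eq_norm]; exact h1) (by rw [← dist_eq_norm]; exact h2) h0
      with h3 | h3
    · exact hne (by linear_combination -h3)
    · exact hne2 (by linear_combination -h3)
  obtain ⟨u, hu1, hu2⟩ := exists_dir hcr s1 s2
  have hcont : Tendsto (fun r : ℝ => V + r * u) (𝓝[>] 0) (𝓝 V) := by
    have : Continuous fun r : ℝ => V + r * u := by fun_prop
    have h2 := this.tendsto 0
    simp only [Complex.ofReal_zero, zero_mul, add_zero] at h2
    exact h2.mono_left nhdsWithin_le_nhds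
  have e1 : ∀ᶠ r : ℝ in 𝓝[>] 0, (0 < s1 → 1 < dist (V + r * u) z1) ∧
      (s1 < 0 → dist (V + r * u) z1 < 1) := by
    rcases lt_trichotomy s1 0 with h3 | h3 | h3
    · filter_upwards [(side_line h1).2 (by rw [hu1]; exact h3)] with r hr
      exact ⟨fun h4 => absurd h4 (not_lt.2 h3.le), fun _ => hr⟩
    · exact Eventually.of_forall fun r => ⟨fun h4 => absurd h4 (by linarith),
        fun h4 => absurd h4 (by linarith)⟩
    · filter_upwards [(side_line h1).1 (by rw [hu1]; exact h3)] with r hr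
      exact ⟨fun _ => hr, fun h4 => absurd h4 (not_lt.2 h3.le)⟩
  have e2 : ∀ᶠ r : ℝ in 𝓝[>] 0, (0 < s2 → 1 < dist (V + r * u) z2) ∧
      (s2 < 0 → dist (V + r * u) z2 < 1) := by
    rcases lt_trichotomy s2 0 with h3 | h3 | h3
    · filter_upwards [(side_line h2).2 (by rw [hu2]; exact h3)] with r hr
      exact ⟨fun h4 => absurd h4 (not_lt.2 h3.le), fun _ => hr⟩
    · exact Eventually.of_forall fun r => ⟨fun h4 => absurd h4 (by linarith),
        fun h4 => absurd h4 (by linarith)⟩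
    · filter_upwards [(side_line h2).1 (by rw [hu2]; exact h3)] with r hr
      exact ⟨fun _ => hr, fun h4 => absurd h4 (not_lt.2 h3.le)⟩
  obtain ⟨r, h3, h4, h5⟩ := ((hcont.eventually hP).and (e1.and e2)).exists
  exact ⟨_, h3, h4.1, h4.2, h5.1, h5.2⟩

/-! ### the sectors -/

/-- the four sectors at `V` -/
structure Sect (T : ℂ → Set (Fin k)) (V z1 z2 : ℂ) (oo ii oi io : Fin k) : Prop where
  nd : [oo, ii, oi, io].Nodup
  pal : T V = {oo, ii, oi, io}
  eoo : ∀ᶠ x in 𝓝 V, 1 < dist x z1 → 1 < dist x z2 → T x = {oo}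
  eii : ∀ᶠ x in 𝓝 V, dist x z1 < 1 → dist x z2 < 1 → T x = {ii}
  eoi : ∀ᶠ x in 𝓝 V, 1 < dist x z1 → dist x z2 < 1 → T x = {oi}
  eio : ∀ᶠ x in 𝓝 V, dist x z1 < 1 → 1 < dist x z2 → T x = {io}

/-- the sides of both pairs at once -/
theorem norm_sides (h : Irr U T) {z V : ℂ} {a b c d : Fin k} (hz : DPt T z a b c d)
    (hV : dist V z = 1) : ∃ i o i' o' : Fin k, T z = {i, o, i', o'} ∧
      i ≠ i' ∧ o ≠ o' ∧ i ≠ o ∧ i ≠ o' ∧ i' ≠ o ∧ i' ≠ o' ∧
      ({i, o} : Set (Fin k)) = {a, b} ∧ ({i', o'} : Set (Fin k)) = {c, d} ∧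
      Sd U z V i o ∧ Sd U z V i' o' := by
  have hs : ∀ x y : Fin k, ({x, y} : Set (Fin k)) = {y, x} := fun x y => pair_comm x y
  rcases h.sides hz hV with h1 | h1 <;> rcases h.sides hz.swap hV with h2 | h2
  · exact ⟨a, b, c, d, hz.pal, hz.ac, hz.bd, hz.ab, hz.ad, hz.bc.symm, hz.cd, rfl, rfl, h1, h2⟩
  · refine ⟨a, b, d, c, ?_, hz.ad, hz.bc, hz.ab, hz.ac, hz.bd.symm, hz.cd.symm, rfl, hs _ _, h1, h2⟩
    rw [hz.pal, hs c d]
  · refine ⟨b, a, c, d, ?_, hz.bc, hz.ad, hz.ab.symm, hz.bd, hz.ac.symm, hz.cd, hs _ _, rfl, h1, h2⟩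
    rw [hz.pal, insert_comm]
  · refine ⟨b, a, d, c, ?_, hz.bd, hz.ac, hz.ab.symm, hz.bc, hz.ad.symm, hz.cd.symm, hs _ _, hs _ _,
      h1, h2⟩
    rw [hz.pal, insert_comm, hs c d]

theorem pair_eq {X : Set (Fin k)} {p q x y : Fin k} (hX : X = {p, q}) (hx : x ∈ X) (hy : y ∈ X)
    (hxy : x ≠ y) : X = {x, y} := by
  subst hX
  rcases hx with rfl | hx <;> rcases hy with rfl | hy
  · exact absurd rfl hxy
  · rw [mem_singleton_iff] at hy; subst hy; rfl
  · rw [mem_singleton_iff] at hx; subst hx; exact pair_comm _ _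
  · rw [mem_singleton_iff] at hx hy; exact absurd (hx.trans hy.symm) hxy

/-- **The four sectors** -/
theorem sect (h : Irr U T) {V z1 z2 : ℂ} {a b c d a' b' c' d' : Fin k}
    (hD1 : DPt T z1 a b c d) (hD2 : DPt T z2 a' b' c' d') (hT1 : T V = T z1) (hT2 : T V = T z2)
    (h1 : dist V z1 = 1) (h2 : dist V z2 = 1) (hne : z1 ≠ z2) (hne2 : z1 + z2 ≠ 2 * V) :
    ∃ oo ii oi io : Fin k, Sect T V z1 z2 oo ii oi io := by
  obtain ⟨i1, o1, i1', o1', hp1, n1, n2, n3, n4, n5, n6, -, -, s1, s1'⟩ := norm_sides h hD1 h1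
  obtain ⟨i2, o2, i2', o2', hp2, m1, m2, m3, m4, m5, m6, -, -, s2, s2'⟩ := norm_sides h hD2 h2
  rw [← hT1] at hp1
  rw [← hT2] at hp2
  -- allowed colours
  have hin1 : ∀ l ∈ T V, l = i1 ∨ l = i1' ∨ l = o1 ∨ l = o1' := by
    intro l hl
    rw [hp1] at hl
    rcases hl with h3 | h3 | h3 | h3
    exacts [Or.inl h3, Or.inr (Or.inr (Or.inl h3)), Or.inr (Or.inl h3), Or.inr (Or.inr (Or.inr h3))]
  have hin2 : ∀ l ∈ T V, l = i2 ∨ l = i2' ∨ l = o2 ∨ l = o2' := by
    intro l hl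
    rw [hp2] at hl
    rcases hl with h3 | h3 | h3 | h3
    exacts [Or.inl h3, Or.inr (Or.inr (Or.inl h3)), Or.inr (Or.inl h3), Or.inr (Or.inr (Or.inr h3))]
  have out1 : ∀ᶠ x in 𝓝 V, 1 < dist x z1 → ∀ l ∈ T x, l = o1 ∨ l = o1' := by
    filter_upwards [h.nhd V, s1, s1'] with x g1 g2 g3 g4 l hl
    rcases hin1 l (g1 hl) with rfl | rfl | h3 | h3
    · exact absurd (h.sub x hl) (g2.1 g4)
    · exact absurd (h.sub x hl) (g3.1 g4)
    · exact Or.inl h3
    · exact Or.inr h3
  have inn1 : ∀ᶠ x in 𝓝 V, dist x z1 < 1 → ∀ l ∈ T x, l = i1 ∨ l = i1' := by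
    filter_upwards [h.nhd V, s1, s1'] with x g1 g2 g3 g4 l hl
    rcases hin1 l (g1 hl) with h3 | h3 | rfl | rfl
    · exact Or.inl h3
    · exact Or.inr h3
    · exact absurd (h.sub x hl) (g2.2 g4)
    · exact absurd (h.sub x hl) (g3.2 g4)
  have out2 : ∀ᶠ x in 𝓝 V, 1 < dist x z2 → ∀ l ∈ T x, l = o2 ∨ l = o2' := by
    filter_upwards [h.nhd V, s2, s2'] with x g1 g2 g3 g4 l hl
    rcases hin2 l (g1 hl) with rfl | rfl | h3 | h3
    · exact absurd (h.sub x hl) (g2.1 g4)
    · exact absurd (h.sub x hl) (g3.1 g4)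
    · exact Or.inl h3
    · exact Or.inr h3
  have inn2 : ∀ᶠ x in 𝓝 V, dist x z2 < 1 → ∀ l ∈ T x, l = i2 ∨ l = i2' := by
    filter_upwards [h.nhd V, s2, s2'] with x g1 g2 g3 g4 l hl
    rcases hin2 l (g1 hl) with h3 | h3 | rfl | rfl
    · exact Or.inl h3
    · exact Or.inr h3
    · exact absurd (h.sub x hl) (g2.2 g4)
    · exact absurd (h.sub x hl) (g3.2 g4)
  -- one colour in each sector
  have hall := (h.nhd V).and (out1.and (inn1.and (out2.and inn2)))
  have key : ∀ t1 t2 : ℝ, ∃ l ∈ T V, (0 < t1 → l = o1 ∨ l = o1') ∧ (t1 < 0 → l = i1 ∨ l = i1') ∧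
      (0 < t2 → l = o2 ∨ l = o2') ∧ (t2 < 0 → l = i2 ∨ l = i2') := by
    intro t1 t2
    obtain ⟨x, ⟨g0, g1, g2, g3, g4⟩, k1, k2, k3, k4⟩ := sector_pt h1 h2 hne hne2 t1 t2 hall
    obtain ⟨l, hl⟩ := h.ne x
    exact ⟨l, g0 hl, fun h5 => g1 (k1 h5) l hl, fun h5 => g2 (k2 h5) l hl,
      fun h5 => g3 (k3 h5) l hl, fun h5 => g4 (k4 h5) l hl⟩
  obtain ⟨oo, hoo, k1, -, k2, -⟩ := key 1 1
  obtain ⟨ii, hii, -, k3, -, k4⟩ := key (-1) (-1)
  obtain ⟨oi, hoi, k5, -, -, k6⟩ := key 1 (-1)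
  obtain ⟨io, hio, -, k7, k8, -⟩ := key (-1) 1
  replace k1 := k1 one_pos
  replace k2 := k2 one_pos
  replace k3 := k3 (by norm_num)
  replace k4 := k4 (by norm_num)
  replace k5 := k5 one_pos
  replace k6 := k6 (by norm_num)
  replace k7 := k7 (by norm_num)
  replace k8 := k8 one_pos
  have dis1 : ∀ x y : Fin k, (x = o1 ∨ x = o1') → (y = i1 ∨ y = i1') → x ≠ y := by
    rintro x y (rfl | rfl) (rfl | rfl)
    exacts [n3.symm, n5.symm, n4.symm, n6.symm]
  have dis2 : ∀ x y : Fin k, (x = o2 ∨ x = o2') → (y = i2 ∨ y = i2') → x ≠ y := by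
    rintro x y (rfl | rfl) (rfl | rfl)
    exacts [m3.symm, m5.symm, m4.symm, m6.symm]
  have d1 : oo ≠ ii := dis1 _ _ k1 k3
  have d2 : oo ≠ oi := dis2 _ _ k2 k6
  have d3 : oo ≠ io := dis1 _ _ k1 k7
  have d4 : ii ≠ oi := (dis1 _ _ k5 k3).symm
  have d5 : ii ≠ io := (dis2 _ _ k8 k4).symm
  have d6 : oi ≠ io := dis1 _ _ k5 k7
  -- the pairs
  have eO1 : ({o1, o1'} : Set (Fin k)) = {oo, oi} := pair_eq rfl k1 k5 d2
  have eI1 : ({i1, i1'} : Set (Fin k)) = {ii, io} := pair_eq rfl k3 k7 d5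
  have eO2 : ({o2, o2'} : Set (Fin k)) = {oo, io} := pair_eq rfl k2 k8 d3
  have eI2 : ({i2, i2'} : Set (Fin k)) = {ii, oi} := pair_eq rfl k4 k6 d4
  have single : ∀ {x : ℂ} {l : Fin k}, (∀ m ∈ T x, m = l) → T x = {l} := by
    intro x l hx
    obtain ⟨m, hm⟩ := h.ne x
    exact Subset.antisymm (fun m hm => hx m hm) (by rintro _ rfl; exact (hx m hm) ▸ hm)
  refine ⟨oo, ii, oi, io, ⟨?_, ?_, ?_, ?_, ?_, ?_⟩⟩
  · simp only [List.nodup_cons, List.mem_cons, List.not_mem_nil, or_false, not_or,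
      not_false_eq_true, List.nodup_nil, and_true]
    exact ⟨⟨d1, d2, d3⟩, ⟨d4, d5⟩, d6⟩
  · ext l
    constructor
    · intro hl
      rcases hin1 l hl with h3 | h3 | h3 | h3
      · have : l ∈ ({i1, i1'} : Set (Fin k)) := Or.inl h3
        rw [eI1] at this
        rcases this with h4 | h4
        · exact Or.inr (Or.inl h4)
        · exact Or.inr (Or.inr (Or.inr h4))
      · have : l ∈ ({i1, i1'} : Set (Fin k)) := Or.inr h3
        rw [eI1] at this
        rcases this with h4 | h4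
        · exact Or.inr (Or.inl h4)
        · exact Or.inr (Or.inr (Or.inr h4))
      · have : l ∈ ({o1, o1'} : Set (Fin k)) := Or.inl h3
        rw [eO1] at this
        rcases this with h4 | h4
        · exact Or.inl h4
        · exact Or.inr (Or.inr (Or.inl h4))
      · have : l ∈ ({o1, o1'} : Set (Fin k)) := Or.inr h3
        rw [eO1] at this
        rcases this with h4 | h4
        · exact Or.inl h4
        · exact Or.inr (Or.inr (Or.inl h4))
    · rintro (rfl | rfl | rfl | rfl)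
      exacts [hoo, hii, hoi, hio]
  · filter_upwards [out1, out2] with x g1 g2 g3 g4
    refine single fun m hm => ?_
    have a1 : m ∈ ({o1, o1'} : Set (Fin k)) := g1 g3 m hm
    have a2 : m ∈ ({o2, o2'} : Set (Fin k)) := g2 g4 m hm
    rw [eO1] at a1
    rw [eO2] at a2
    rcases a1 with h5 | h5
    · exact h5
    · rcases a2 with h6 | h6
      · exact h6
      · exact absurd (h5.symm.trans h6) d6
  · filter_upwards [inn1, inn2] with x g1 g2 g3 g4
    refine single fun m hm => ?_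
    have a1 : m ∈ ({i1, i1'} : Set (Fin k)) := g1 g3 m hm
    have a2 : m ∈ ({i2, i2'} : Set (Fin k)) := g2 g4 m hm
    rw [eI1] at a1
    rw [eI2] at a2
    rcases a1 with h5 | h5
    · exact h5
    · rcases a2 with h6 | h6
      · exact h6
      · exact absurd (h6.symm.trans h5) d6
  · filter_upwards [out1, inn2] with x g1 g2 g3 g4
    refine single fun m hm => ?_
    have a1 : m ∈ ({o1, o1'} : Set (Fin k)) := g1 g3 m hm
    have a2 : m ∈ ({i2, i2'} : Set (Fin k)) := g2 g4 m hm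
    rw [eO1] at a1
    rw [eI2] at a2
    rcases a1 with h5 | h5
    · rcases a2 with h6 | h6
      · exact absurd (h5.symm.trans h6) d1
      · exact h6
    · exact h5
  · filter_upwards [inn1, out2] with x g1 g2 g3 g4
    refine single fun m hm => ?_
    have a1 : m ∈ ({i1, i1'} : Set (Fin k)) := g1 g3 m hm
    have a2 : m ∈ ({o2, o2'} : Set (Fin k)) := g2 g4 m hm
    rw [eI1] at a1
    rw [eO2] at a2
    rcases a1 with h5 | h5
    · rcases a2 with h6 | h6
      · exact absurd (h6.symm.trans h5) d1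
      · exact h6
    · exact h5

/-! ### the edges -/

/-- one colour on each side of the circle near `q`: the palette of `q` -/
theorem edge (h : Irr U T) {q z : ℂ} {α β : Fin k} (hq : dist q z = 1)
    (ho : ∀ᶠ x in 𝓝 q, 1 < dist x z → T x = {α}) (hi : ∀ᶠ x in 𝓝 q, dist x z < 1 → T x = {β}) :
    T q = {α, β} := by
  have hn : ∀ w : ℂ, dist w z = 1 → 0 < ip (w - z) (w - z) ∧ ip (-(w - z)) (w - z) < 0 := by
    intro w hw
    have h1 := ip_sq (n := w - z) (by rw [← dist_eq_norm]; exact hw)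
    unfold ip
    constructor
    · nlinarith
    · simp only [Complex.neg_re, Complex.neg_im]
      nlinarith
  have hcont : ∀ w u : ℂ, Tendsto (fun r : ℝ => w + r * u) (𝓝[>] 0) (𝓝 w) := by
    intro w u
    have : Continuous fun r : ℝ => w + r * u := by fun_prop
    have h2 := this.tendsto 0
    simp only [Complex.ofReal_zero, zero_mul, add_zero] at h2
    exact h2.mono_left nhdsWithin_le_nhds
  have pout : ∀ w : ℂ, dist w z = 1 → ∃ᶠ x in 𝓝 w, 1 < dist x z := fun w hw =>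
    (hcont w (w - z)).frequently ((side_line hw).1 (hn w hw).1).frequently
  have pin : ∀ w : ℂ, dist w z = 1 → ∃ᶠ x in 𝓝 w, dist x z < 1 := fun w hw =>
    (hcont w (-(w - z))).frequently ((side_line hw).2 (hn w hw).2).frequently
  have hmem : ∀ l : Fin k, (∃ᶠ x in 𝓝 q, l ∈ T x) → l ∈ T q := by
    intro l hl
    have : q ∈ closure {x | l ∈ T x} := mem_closure_iff_frequently.2 hl
    rwa [(h.closed l).closure_eq] at this
  refine Subset.antisymm (fun l hl => ?_) ?_
  · obtain ⟨w, hw, hw1, hw2⟩ := ((h.pure q l hl).and_eventually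
      (ho.eventually_nhds.and hi.eventually_nhds)).exists
    rcases lt_trichotomy (dist w z) 1 with h3 | h3 | h3
    · have h4 := hw2.self_of_nhds h3
      rw [hw] at h4
      exact Or.inr (singleton_eq_singleton_iff.1 h4)
    · obtain ⟨x, hx, hx1, hx2⟩ := ((pout w h3).and_eventually (hw1.and (h.nhd w))).exists
      have h4 := hx1 hx
      rw [h4, hw] at hx2
      exact Or.inl ((hx2 rfl : α = l).symm)
    · have h4 := hw1.self_of_nhds h3
      rw [hw] at h4
      exact Or.inl (singleton_eq_singleton_iff.1 h4)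
  · rintro l (rfl | h5)
    · exact hmem l (((pout q hq).and_eventually ho).mono fun x hx => by rw [hx.2 hx.1]; rfl)
    · rw [mem_singleton_iff] at h5
      subst h5
      exact hmem l (((pin q hq).and_eventually hi).mono fun x hx => by rw [hx.2 hx.1]; rfl)

theorem Sect.symm {V z1 z2 : ℂ} {oo ii oi io : Fin k} (S : Sect T V z1 z2 oo ii oi io) :
    Sect T V z2 z1 oo ii io oi where
  nd := by
    have := S.nd
    simp only [List.nodup_cons, List.mem_cons, List.not_mem_nil, or_false, not_or,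
      not_false_eq_true, List.nodup_nil, and_true] at this ⊢
    tauto
  pal := by rw [S.pal]; ext l; simp only [mem_insert_iff, mem_singleton_iff]; tauto
  eoo := S.eoo.mono fun x hx h1 h2 => hx h2 h1
  eii := S.eii.mono fun x hx h1 h2 => hx h2 h1
  eoi := S.eio.mono fun x hx h1 h2 => hx h2 h1
  eio := S.eoi.mono fun x hx h1 h2 => hx h2 h1

/-- the edge on `S(z1)` outside `S(z2)` -/
theorem Sect.edge_out (h : Irr U T) {V z1 z2 : ℂ} {oo ii oi io : Fin k}
    (S : Sect T V z1 z2 oo ii oi io) :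
    ∀ᶠ q in 𝓝 V, dist q z1 = 1 → 1 < dist q z2 → T q = {oo, io} := by
  filter_upwards [S.eoo.eventually_nhds, S.eio.eventually_nhds] with q h1 h2 h3 h4
  have hop : ∀ᶠ x in 𝓝 q, 1 < dist x z2 :=
    (isOpen_lt continuous_const (continuous_id.dist continuous_const)).mem_nhds h4
  exact edge h h3 ((h1.and hop).mono fun x hx h5 => hx.1 h5 hx.2)
    ((h2.and hop).mono fun x hx h5 => hx.1 h5 hx.2)

/-- the edge on `S(z1)` inside `S(z2)` -/
theorem Sect.edge_in (h : Irr U T) {V z1 z2 : ℂ} {oo ii oi io : Fin k}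
    (S : Sect T V z1 z2 oo ii oi io) :
    ∀ᶠ q in 𝓝 V, dist q z1 = 1 → dist q z2 < 1 → T q = {oi, ii} := by
  filter_upwards [S.eoi.eventually_nhds, S.eii.eventually_nhds] with q h1 h2 h3 h4
  have hop : ∀ᶠ x in 𝓝 q, dist x z2 < 1 :=
    (isOpen_lt (continuous_id.dist continuous_const) continuous_const).mem_nhds h4
  exact edge h h3 ((h1.and hop).mono fun x hx h5 => hx.1 h5 hx.2)
    ((h2.and hop).mono fun x hx h5 => hx.1 h5 hx.2)

/-- the edge on `S(z2)` outside `S(z1)` -/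
theorem Sect.edge_out' (h : Irr U T) {V z1 z2 : ℂ} {oo ii oi io : Fin k}
    (S : Sect T V z1 z2 oo ii oi io) :
    ∀ᶠ q in 𝓝 V, dist q z2 = 1 → 1 < dist q z1 → T q = {oo, oi} := S.symm.edge_out h

/-- the edge on `S(z2)` inside `S(z1)` -/
theorem Sect.edge_in' (h : Irr U T) {V z1 z2 : ℂ} {oo ii oi io : Fin k}
    (S : Sect T V z1 z2 oo ii oi io) :
    ∀ᶠ q in 𝓝 V, dist q z2 = 1 → dist q z1 < 1 → T q = {io, ii} := S.symm.edge_in h

end Vale.Agent.P032.H715
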